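import Vale.Agent.P085b.Stm
import Vale.Agent.P082.Lim

/-! Abelian corners are generated by one self-adjoint element. -/

namespace Vale.Agent.P085.G

open Filter Topology
open scoped InnerProductSpace ComplexOrder

universe u

section Abs

variable {A : Type u} [CStarAlgebra A]

theorem ab_norm {z : A} (hz : star z = z) (hzz : z * z = 1) : ‖z‖ ≤ 1 := by
  rcases subsingleton_or_nontrivial A with h | h
  · rw [Subsingleton.elim z 0, norm_zero]
    exact zero_le_one
  · exact (CStarRing.norm_of_mem_unitary ⟨by rw [hz, hzz], by rw [hz, hzz]⟩).le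

theorem ab_sign {S : StarSubalgebra ℂ A} [IsClosed (S : Set A)] {z k : A} (hz : star z = z)
    (hzz : z * z = 1) (hk : star k = k) (hc : k * z = z * k) (hn : ‖k‖ < 1) (h : z + k ∈ S) :
    z ∈ S := by
  let _ := CStarAlgebra.spectralOrder A
  have _ := CStarAlgebra.spectralOrderedRing A
  have hzz' : ∀ w, z * (z * w) = w := fun w => by rw [← mul_assoc, hzz, one_mul]
  have h1 : ‖z * k‖ < 1 := ((norm_mul_le _ _).trans
    (mul_le_of_le_one_left (norm_nonneg _) (ab_norm hz hzz))).trans_lt hn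
  have h2 : IsSelfAdjoint (-(z * k)) := by
    rw [IsSelfAdjoint, star_neg, star_mul, hz, hk, hc]
  have h3 : 0 ≤ 1 - -(z * k) := by
    refine sub_nonneg.2 (h2.le_algebraMap_norm_self.trans ?_)
    rw [← map_one (algebraMap ℝ A), norm_neg]
    exact algebraMap_mono _ h1.le
  have h4 : (z + k) * (z + k) = (1 - -(z * k)) * (1 - -(z * k)) := by
    have : z * k * (z * k) = k * k := by rw [mul_assoc, ← mul_assoc k, hc, mul_assoc, hzz']
    simp only [sub_neg_eq_add, mul_add, add_mul, this, hc, hzz, mul_one, one_mul]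
  have h5 : 1 - -(z * k) ∈ S := by
    rw [← CFC.sqrt_mul_self _ h3, CFC.sqrt_eq_real_sqrt _ (by
      nth_rewrite 1 [← h3.isSelfAdjoint.star_eq]
      exact star_mul_self_nonneg _), ← h4]
    exact cfcₙ_mem (𝕜' := ℂ) _ (mul_mem h h)
  obtain ⟨T, hT⟩ := (StarSubalgebra.coe_isUnit S (a := ⟨_, h5⟩)).1
    (Units.oneSub (-(z * k)) (by rwa [norm_neg])).isUnit
  have h6 : (1 - -(z * k)) * ((T⁻¹ : Sˣ) : S) = 1 := by
    have := congrArg Subtype.val T.mul_inv
    rwa [hT] at this
  have h7 : z = (z + k) * ((T⁻¹ : Sˣ) : S) := by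
    calc z = z * ((1 - -(z * k)) * ((T⁻¹ : Sˣ) : S)) := by rw [h6, mul_one]
      _ = _ := by rw [← mul_assoc, sub_neg_eq_add, mul_add, mul_one, hzz']
  rw [h7]
  exact mul_mem h (Subtype.prop _)

theorem ab_series {x : ℕ → A} (h1 : ∀ k, star (x k) = x k) (h2 : ∀ k, x k * x k = 1)
    (h3 : ∀ j k, Commute (x j) (x k)) :
    ∃ h : A, star h = h ∧ ‖h‖ ≤ 3 / 2 ∧ (∀ c, (∀ k, Commute c (x k)) → Commute c h) ∧
      (∀ e, (∀ k, e * x k = e) → e * h = (3 / 2 : ℂ) • e) ∧
      ∀ S : StarSubalgebra ℂ A, IsClosed (S : Set A) → (h ∈ S ↔ ∀ k, x k ∈ S) := by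
  set t : ℕ → A := fun m => ∑' k, (3⁻¹ : ℂ) ^ k • x (k + m) with ht
  have hb : ∀ m k, ‖(3⁻¹ : ℂ) ^ k • x (k + m)‖ ≤ 3⁻¹ ^ k := fun m k => by
    rw [norm_smul, norm_pow, norm_inv, Complex.norm_ofNat]
    exact mul_le_of_le_one_right (by positivity) (ab_norm (h1 _) (h2 _))
  have hg := hasSum_geometric_of_lt_one (r := 3⁻¹) (by norm_num) (by norm_num)
  have hs : ∀ m, star (t m) = t m := fun m => by simp [ht, tsum_star, h1]
  have hn : ∀ m, ‖t m‖ ≤ 3 / 2 := fun m => by
    have : ‖t m‖ ≤ (1 - 3⁻¹)⁻¹ := tsum_of_norm_bounded hg (hb m)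
    norm_num at this ⊢
    exact this
  have hrec : ∀ m, t m = x m + (3⁻¹ : ℂ) • t (m + 1) := fun m => by
    rw [ht]
    dsimp only
    rw [(hg.summable.of_norm_bounded (hb m)).tsum_eq_zero_add, ← tsum_const_smul'']
    simp only [pow_zero, zero_add, one_smul, smul_smul, pow_succ', add_assoc, add_comm 1 m]
  refine ⟨t 0, hs 0, hn 0, fun c hc => Commute.tsum_right _ fun k => (hc _).smul_right _,
    fun e he => ?_, fun S hS => ⟨fun h0 => ?_, fun h0 =>
      tsum_mem hS fun k => SMulMemClass.smul_mem _ (h0 _)⟩⟩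
  · have hq : ‖(3⁻¹ : ℂ)‖ < 1 := by
      rw [norm_inv, Complex.norm_ofNat]
      norm_num
    rw [ht]
    dsimp only
    rw [← (hg.summable.of_norm_bounded (hb 0)).tsum_mul_left]
    simp only [mul_smul_comm, he]
    rw [(summable_geometric_of_norm_lt_one hq).tsum_smul_const, tsum_geometric_of_norm_lt_one hq]
    norm_num
  have key : ∀ m, t m ∈ S → x m ∈ S := fun m hm => by
    refine ab_sign (h1 m) (h2 m) (k := (3⁻¹ : ℂ) • t (m + 1)) (by simp [hs]) ?_ ?_ (hrec m ▸ hm)
    · exact ((Commute.tsum_right _ fun k => (h3 m _).smul_right _).smul_right _).symm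
    · rw [norm_smul, norm_inv, Complex.norm_ofNat]
      have := hn (m + 1)
      linarith
  have key2 : ∀ m, t m ∈ S := fun m => by
    induction m with
    | zero => exact h0
    | succ m ih =>
      have : t (m + 1) = (3 : ℂ) • (t m - x m) := by rw [hrec m]; module
      rw [this]
      exact SMulMemClass.smul_mem _ (sub_mem ih (key m ih))
  exact fun k => key k (key2 k)

theorem ab_comm {G : Type u} [NormedAddCommGroup G] [InnerProductSpace ℂ G] [CompleteSpace G]
    (ρ : A →⋆ₐ[ℂ] (G →L[ℂ] G)) (hR : P104.Rickart A) {p : A} (hp : IsStarProjection p)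
    (t : G →L[ℂ] G) (h1 : ∀ g, IsStarProjection g → p * g = g → t * ρ g = ρ g * t) (a : A) :
    t * ρ (p * a * p) = ρ (p * a * p) * t := by
  let _ := CStarAlgebra.spectralOrder A
  have _ := CStarAlgebra.spectralOrderedRing A
  have h2 : ∀ x, 0 ≤ x → x ≤ 1 → p * x = x → t * ρ x = ρ x * t := fun x x0 x1 px => by
    rw [← sub_eq_zero]
    refine ContinuousLinearMap.ext fun η => ?_
    rw [zero_apply]
    set ξ := (t * ρ x - ρ x * t) η with hξ
    let ψ : A →ₗ[ℝ] ℝ :=
      { toFun w := (⟪ξ, (t * ρ w - ρ w * t) η⟫_ℂ).re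
        map_add' u w := by
          rw [← Complex.add_re, ← inner_add_right, ← add_apply, map_add]
          congr 3
          noncomm_ring
        map_smul' r w := by
          rw [← Complex.coe_smul, map_smul, smul_mul_assoc, mul_smul_comm, ← smul_sub,
            smul_apply, inner_smul_right, Complex.re_ofReal_mul]
          rfl }
    have hψ : ∀ w, ψ w = (⟪ξ, (t * ρ w - ρ w * t) η⟫_ℂ).re := fun w => rfl
    have key := hR.halving ψ (C := ‖ξ‖ * ((‖t‖ + ‖t‖) * ‖η‖)) (r := p)
      (fun w w0 w1 => by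
        have hw : ‖ρ w‖ ≤ 1 := (NonUnitalStarAlgHom.norm_apply_le ρ w).trans
          ((CStarAlgebra.norm_le_one_iff_of_nonneg _ w0).2 w1)
        rw [hψ]
        refine (Complex.re_le_norm _).trans ((norm_inner_le_norm _ _).trans ?_)
        refine mul_le_mul_of_nonneg_left ((ContinuousLinearMap.le_opNorm _ _).trans
          (mul_le_mul_of_nonneg_right ((norm_sub_le _ _).trans (add_le_add ?_ ?_))
            (norm_nonneg _))) (norm_nonneg _)
        · exact (norm_mul_le _ _).trans (mul_le_of_le_one_right (norm_nonneg _) hw)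
        · exact (norm_mul_le _ _).trans (mul_le_of_le_one_left (norm_nonneg _) hw))
      (fun g hg pg => by rw [hψ, h1 g hg pg]; simp) x0 x1 px
    rw [hψ, ← hξ, inner_self_eq_norm_sq_to_K] at key
    have k2 : ‖ξ‖ ^ 2 ≤ 0 := by exact_mod_cast key
    simpa using le_antisymm k2 (by positivity)
  have h3 : ∀ x, 0 ≤ x → t * ρ (p * x * p) = ρ (p * x * p) * t := fun x x0 => by
    have b0 : 0 ≤ p * x * p := hp.isSelfAdjoint.conjugate_nonneg x0
    set N := ‖p * x * p‖ + 1 with hN
    have N0 : 0 < N := by positivity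
    have b1 : 0 ≤ N⁻¹ • (p * x * p) := smul_nonneg (by positivity) b0
    have := h2 _ b1 (by
      rw [← CStarAlgebra.norm_le_one_iff_of_nonneg _ b1, norm_smul, Real.norm_eq_abs,
        abs_of_pos (by positivity), inv_mul_le_iff₀ N0]
      linarith) (by rw [mul_smul_comm, ← mul_assoc, ← mul_assoc, hp.isIdempotentElem.eq])
    rw [← Complex.coe_smul, map_smul, smul_mul_assoc, mul_smul_comm] at this
    exact smul_right_injective _ (Complex.ofReal_ne_zero.2 (inv_pos.2 N0).ne') this
  have ha : a ∈ Submodule.span ℂ {x : A | 0 ≤ x} := by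
    rw [CStarAlgebra.span_nonneg]; trivial
  induction ha using Submodule.span_induction with
  | mem x hx => exact h3 x hx
  | zero => simp
  | add x y _ _ hx hy => simp only [mul_add, add_mul, map_add, hx, hy]
  | smul r x _ hx => simp only [mul_smul_comm, smul_mul_assoc, map_smul, hx]

end Abs

theorem s_ab (hd : S_diag.{u}) : S_ab.{u} := by
  intro H _ _ _ M p hM hp
  have _ := hd
  have ps := hp.proj.isSelfAdjoint.star_eq
  have pp := hp.proj.isIdempotentElem.eq
  obtain ⟨q, hq, hq'⟩ := hM {q | q ∈ M ∧ IsStarProjection q ∧ p * q = q}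
    ⟨0, zero_mem M, IsStarProjection.zero _, mul_zero p⟩ fun q h => ⟨h.1, h.2.1.norm_le⟩
  have qs : ∀ n, star (q n) = q n := fun n => (hq n).2.1.isSelfAdjoint.star_eq
  have qq : ∀ n, q n * q n = q n := fun n => (hq n).2.1.isIdempotentElem.eq
  have pq : ∀ n, p * q n = q n := fun n => (hq n).2.2
  have qp : ∀ n, q n * p = q n := fun n => by
    simpa only [star_mul, ps, qs] using congrArg star (pq n)
  have qc : ∀ j k, Commute (q j) (q k) := fun j k => by
    have := hp.comm _ (hq j).1 _ (hq k).1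
    rwa [pq, pq, qp, qp] at this
  have xc : ∀ c : Bdd H, ∀ k, Commute c (q k) → Commute c (1 - (2 : ℂ) • q k) := fun c k h =>
    (Commute.one_right c).sub_right (h.smul_right _)
  obtain ⟨h, h1, h2, h3, h4, h5⟩ := ab_series (x := fun k => 1 - (2 : ℂ) • q k)
    (fun k => by simp [qs]) (fun k => by
      simp only [mul_sub, sub_mul, one_mul, mul_one, smul_mul_assoc, mul_smul_comm, qq]
      module) fun j k => xc _ k (xc _ j (qc k j)).symm
  have ph : p * h = h * p := h3 p fun k => xc p k ((pq k).trans (qp k).symm)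
  have hM' : h ∈ M := (h5 M.toStarSubalgebra (isClosed_vn M)).2 fun k =>
    sub_mem (one_mem _) (SMulMemClass.smul_mem _ (show q k ∈ M.toStarSubalgebra from (hq k).1))
  have e1 : (1 - p) * h = (3 / 2 : ℂ) • (1 - p) := h4 _ fun k => by
    rw [mul_sub, mul_one, mul_smul_comm, sub_mul, one_mul, pq, sub_self, smul_zero, sub_zero]
  refine ⟨(2 / 3 : ℂ) • (p * h), SMulMemClass.smul_mem (s := M.toStarSubalgebra) _
    (mul_mem hp.mem hM'), ?_, ?_, ?_, fun t t1 t2 m hm => ?_⟩
  · rw [star_smul, star_mul, h1, ps, ph]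
    simp
  · rw [mul_smul_comm, ← mul_assoc, pp]
  · have : ‖p * h‖ ≤ 3 / 2 := (norm_mul_le _ _).trans
      ((mul_le_of_le_one_left (norm_nonneg _) hp.proj.norm_le).trans h2)
    rw [norm_smul, norm_div, Complex.norm_ofNat, Complex.norm_ofNat]
    linarith
  have t3 : Commute t (p * h) := by
    rw [mul_smul_comm, smul_mul_assoc] at t1
    exact smul_right_injective _ (by norm_num) t1
  have t4 : t * h = h * t := by
    have e2 : h = p * h + (3 / 2 : ℂ) • (1 - p) := by rw [← e1, sub_mul, one_mul, add_sub_cancel]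
    rw [e2]
    exact t3.add_right (((Commute.one_right t).sub_right t2).smul_right _)
  have hS : IsClosed (StarSubalgebra.centralizer ℂ ({t} : Set (Bdd H)) : Set (Bdd H)) := by
    rw [StarSubalgebra.coe_centralizer]
    exact Set.isClosed_centralizer _
  have t5 : ∀ k, t * q k = q k * t := fun k => by
    have a1 := (h5 _ hS).1 ((StarSubalgebra.mem_centralizer_iff ℂ).2 fun g hg => by
      rw [Set.mem_singleton_iff.1 hg]
      exact ⟨t4, by simpa only [star_mul, h1] using (congrArg star t4).symm⟩) k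
    have a2 := ((StarSubalgebra.mem_centralizer_iff ℂ).1 a1 t rfl).1
    rw [mul_sub, sub_mul, mul_one, one_mul, sub_right_inj, mul_smul_comm, smul_mul_assoc] at a2
    exact smul_right_injective _ two_ne_zero a2
  haveI := isClosed_vn M
  exact ab_comm M.toStarSubalgebra.subtype (P082.isVN_subtype M).isWRep.rickart
    (p := ⟨p, hp.mem⟩) ⟨Subtype.ext pp, Subtype.ext ps⟩ t (fun g hg pg => by
      obtain ⟨l, _, hl⟩ := hq' g ⟨g.2, hg.map M.toStarSubalgebra.subtype, congrArg Subtype.val pg⟩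
      exact WL.comm hl t5) ⟨m, hm⟩

end Vale.Agent.P085.G
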