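import Vale.Agent.P085b.Stm

/-! The centre valued trace and averaging. -/

set_option linter.unusedSectionVars false

namespace Vale.Agent.P085.G

open Filter Topology
open scoped InnerProductSpace ComplexOrder

universe u

variable {A : Type u} [CStarAlgebra A] [Tr A]

theorem ce_conj {d v : A} (hd : Cen d) (hv : v ∈ unitary A) (w : A) :
    τ (d * (v * w * star v)) = τ (d * w) := by
  rw [← mul_assoc, τ_comm, ← mul_assoc, ← mul_assoc, ← hd, mul_assoc d, hv.1, mul_one]

theorem ce_scale (y : A) : ∃ r : ℝ, 0 < r ∧ ‖(r : ℂ) • y‖ ≤ 1 := by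
  have hr0 : 0 < (‖y‖ + 1)⁻¹ := by positivity
  refine ⟨_, hr0, ?_⟩
  rw [norm_smul, Complex.norm_real, Real.norm_of_nonneg hr0.le, inv_mul_le_iff₀ (by positivity)]
  linarith

variable [WTr A]

theorem ce_min {Q : StarSubalgebra ℂ A} (hQ : IsW Q) {y : A} (hyQ : y ∈ Q) (hy : ‖y‖ ≤ 1) (c : A)
    (β : ℝ) (h : ∀ v ∈ Q, v ∈ unitary A → β ≤ (τ (c * (v * y * star v))).re) :
    ∃ e ∈ Q, (∀ w ∈ Q, e * w = w * e) ∧ (∀ d, Cen d → τ (d * e) = τ (d * y)) ∧
      β ≤ (τ (c * e)).re := by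
  obtain ⟨e, ⟨he0, he1, he2, he3⟩, hmin⟩ := exists_min
    (S := {w : A | w ∈ Q ∧ ‖w‖ ≤ 1 ∧ (∀ d, Cen d → τ (d * w) = τ (d * y)) ∧
      ∀ v ∈ Q, v ∈ unitary A → β ≤ (τ (c * (v * w * star v))).re})
    ⟨y, hyQ, hy, fun _ _ => rfl, h⟩ (fun x hx => hx.2.1)
    (fun u x hu h => ⟨hQ.mem u x (fun n => (hu n).1) (fun n => (hu n).2.1) h,
      norm_le_of_T2 (fun n => (hu n).2.1) h, fun d hd =>
      tendsto_nhds_unique (h.const_mul d).τ
        (tendsto_const_nhds.congr fun n => ((hu n).2.2.1 d hd).symm), fun v hvQ hv =>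
        ge_of_tendsto' ((Complex.continuous_re.tendsto _).comp
          (((h.const_mul v).mul_const (star v)).const_mul c).τ) fun n => (hu n).2.2.2 v hvQ hv⟩)
    (fun x hx z hz a b ha hb hab => ⟨add_mem (SMulMemClass.smul_mem _ hx.1)
      (SMulMemClass.smul_mem _ hz.1), norm_convex_le hx.2.1 hz.2.1 ha hb hab, fun d hd => by
      rw [mul_add, mul_smul_comm, mul_smul_comm, map_add, map_smul, map_smul, hx.2.2.1 d hd,
        hz.2.2.1 d hd, ← add_smul, ← Complex.ofReal_add, hab, Complex.ofReal_one, one_smul],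
      fun v hvQ hv => by
      have h1 := mul_le_mul_of_nonneg_left (hx.2.2.2 v hvQ hv) ha
      have h2 := mul_le_mul_of_nonneg_left (hz.2.2.2 v hvQ hv) hb
      simp only [mul_add, add_mul, mul_smul_comm, smul_mul_assoc, map_add, map_smul, smul_eq_mul,
        Complex.add_re, Complex.re_ofReal_mul]
      calc β = a * β + b * β := by rw [← add_mul, hab, one_mul]
        _ ≤ _ := add_le_add h1 h2⟩)
  have h1 : ∀ v ∈ Q, v ∈ unitary A → e * v = v * e := by
    intro v hvQ hv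
    have hv' := Unitary.star_mem hv
    have := hmin (v * e * star v) ⟨mul_mem (mul_mem hvQ he0) (star_mem hvQ),
      norm_mul_le_one (norm_mul_le_one (norm_unitary_le hv) he1) (norm_unitary_le hv'),
      fun d hd => by rw [ce_conj hd hv, he2 d hd], fun w hwQ hw => by
        have := he3 _ (mul_mem hwQ hvQ) (mul_mem hw hv)
        simpa only [star_mul, mul_assoc] using this⟩
      (by rw [n2_mul_unitary _ hv', n2_unitary_mul hv])
    conv_lhs => rw [← this]
    rw [mul_assoc, hv.1, mul_one]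
  refine ⟨e, he0, fun w hw => ?_, he2, by simpa using he3 1 (one_mem _) (one_mem _)⟩
  obtain ⟨v, d, hv, -⟩ := CStarAlgebra.exists_sum_four_unitary (⟨w, hw⟩ : Q)
  have e1 : w = ∑ i, d i • ((v i : Q) : A) := by simpa using congrArg Subtype.val hv
  have e2 : ∀ i, e * ((v i : Q) : A) = (v i : Q) * e := fun i =>
    h1 _ (v i : Q).2 ⟨congrArg Subtype.val (v i).2.1, congrArg Subtype.val (v i).2.2⟩
  rw [e1]
  simp only [Finset.mul_sum, Finset.sum_mul, mul_smul_comm, smul_mul_assoc, e2]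

theorem s_ce : S_ce.{u} := fun A _ _ _ => by
  have key : ∀ y : A, ∃ e, Cen e ∧ ∀ d, Cen d → τ (d * e) = τ (d * y) := fun y => by
    obtain ⟨r, hr, hy⟩ := ce_scale y
    obtain ⟨e, -, h1, h2, -⟩ := ce_min (Q := ⊤) ⟨fun _ _ _ _ _ => trivial⟩ trivial hy 0 0
      fun _ _ _ => by simp
    refine ⟨((r⁻¹ : ℝ) : ℂ) • e, fun w => by rw [smul_mul_assoc, mul_smul_comm, h1 w trivial],
      fun d hd => ?_⟩
    rw [mul_smul_comm, map_smul, h2 d hd, mul_smul_comm, map_smul, smul_smul, ← Complex.ofReal_mul,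
      inv_mul_cancel₀ hr.ne', Complex.ofReal_one, one_smul]
  choose E h1 h2 using key
  have un : ∀ w y, Cen w → (∀ d, Cen d → τ (d * w) = τ (d * y)) → E y = w := fun w y hw h =>
    sub_eq_zero.1 (((h1 y).sub hw).eq_zero fun c hc => by
      rw [mul_sub, map_sub, h2 y c hc, h c hc, sub_self])
  refine ⟨⟨⟨E, fun x y => un _ _ (fun w => by rw [add_mul, mul_add, h1 x, h1 y]) fun d hd => ?_⟩,
    fun c x => un _ _ (fun w => by rw [RingHom.id_apply, smul_mul_assoc, mul_smul_comm, h1 x])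
      fun d hd => ?_⟩, h1, fun c y hc => h2 y c hc⟩
  · rw [mul_add, mul_add, map_add, map_add, h2 x d hd, h2 y d hd]
  · rw [RingHom.id_apply, mul_smul_comm, mul_smul_comm, map_smul, map_smul, h2 x d hd]

theorem s_avg : S_avg.{u} := fun A _ _ _ Q hQ y hy c _ h0 β h => by
  obtain ⟨r, hr, hy1⟩ := ce_scale y
  obtain ⟨e, he, h1, h2, h3⟩ := ce_min hQ.isW (SMulMemClass.smul_mem (r : ℂ) hy) hy1 c (r * β)
    fun v hvQ hv => by
      simp only [mul_smul_comm, smul_mul_assoc, map_smul, smul_eq_mul, Complex.re_ofReal_mul]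
      exact mul_le_mul_of_nonneg_left (h v hvQ hv) hr.le
  rw [(hQ.fac e he h1).eq_zero fun d hd => by
    rw [h2 d hd, mul_smul_comm, map_smul, h0 d hd, smul_zero], mul_zero, map_zero,
    Complex.zero_re] at h3
  exact le_of_mul_le_mul_left (by rwa [mul_zero]) hr

end Vale.Agent.P085.G
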