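import Vale.Agent.P085b.Stm

/-! The corner of a von Neumann algebra as a von Neumann algebra on the range. -/

set_option linter.unusedSectionVars false

namespace Vale.Agent.P085.G

open Filter Topology
open scoped InnerProductSpace

universe u

section

variable {H : Type u} [NormedAddCommGroup H] [InnerProductSpace ℂ H] [CompleteSpace H]
  {K : Type u} [NormedAddCommGroup K] [InnerProductSpace ℂ K] [CompleteSpace K]

theorem cor_star {j : K →L[ℂ] H} {a : H →L[ℂ] K} (h1 : ∀ ξ η, ⟪j ξ, η⟫_ℂ = ⟪ξ, a η⟫_ℂ)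
    (T : Bdd K) : j ∘L star T ∘L a = star (j ∘L T ∘L a : Bdd H) := by
  have h1' : ∀ η ξ, ⟪η, j ξ⟫_ℂ = ⟪a η, ξ⟫_ℂ := fun η ξ => by
    rw [← inner_conj_symm, h1, inner_conj_symm]
  rw [ContinuousLinearMap.star_eq_adjoint, ContinuousLinearMap.star_eq_adjoint,
    ContinuousLinearMap.eq_adjoint_iff]
  intro ξ η
  simp only [ContinuousLinearMap.comp_apply]
  rw [h1, h1', ContinuousLinearMap.adjoint_inner_left, ← h1', h1']

/-- The corner as a star subalgebra. -/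
def cor_sub (M : VonNeumannAlgebra H) (y : Bdd H) (hy : y ∈ M) (j : K →L[ℂ] H) (a : H →L[ℂ] K)
    (h1 : ∀ ξ η, ⟪j ξ, η⟫_ℂ = ⟪ξ, a η⟫_ℂ) (h2 : ∀ ξ, a (j ξ) = ξ) (h3 : ∀ η, j (a η) = y η) :
    StarSubalgebra ℂ (Bdd K) where
  carrier := {T | j ∘L T ∘L a ∈ M}
  mul_mem' := fun {S T} hS hT => by
    have e : j ∘L (S * T) ∘L a = (j ∘L S ∘L a : Bdd H) * (j ∘L T ∘L a) := by
      ext1 ξ
      simp only [ContinuousLinearMap.comp_apply, mul_apply_eq_comp, h2]
    change j ∘L (S * T) ∘L a ∈ M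
    rw [e]
    exact mul_mem hS hT
  add_mem' := fun {S T} hS hT => by
    have e : j ∘L (S + T) ∘L a = (j ∘L S ∘L a : Bdd H) + (j ∘L T ∘L a) := by
      rw [ContinuousLinearMap.add_comp, ContinuousLinearMap.comp_add]
    change j ∘L (S + T) ∘L a ∈ M
    rw [e]
    exact add_mem hS hT
  algebraMap_mem' := fun c => by
    have e : j ∘L (algebraMap ℂ (Bdd K) c) ∘L a = c • y := by
      ext1 ξ
      simp [Algebra.algebraMap_eq_smul_one, h3]
    change j ∘L (algebraMap ℂ (Bdd K) c) ∘L a ∈ M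
    rw [e]
    exact M.toStarSubalgebra.smul_mem hy c
  star_mem' := fun {T} hT => by
    change j ∘L star T ∘L a ∈ M
    rw [cor_star h1]
    exact star_mem (s := M) hT

theorem cor_main (M : VonNeumannAlgebra H) (y : Bdd H) (hy : y ∈ M) (hp : IsStarProjection y)
    (j : K →L[ℂ] H) (a : H →L[ℂ] K)
    (h1 : ∀ ξ η, ⟪j ξ, η⟫_ℂ = ⟪ξ, a η⟫_ℂ) (h2 : ∀ ξ, a (j ξ) = ξ) (h3 : ∀ η, j (a η) = y η) :
    ∃ N : VonNeumannAlgebra K, (∀ T : Bdd K, T ∈ N ↔ j ∘L T ∘L a ∈ M) ∧ (Sp M → Sp N) := by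
  have hj : ∀ ξ, ‖j ξ‖ = ‖ξ‖ := fun ξ => by
    rw [← sq_eq_sq₀ (norm_nonneg _) (norm_nonneg _), ← inner_self_eq_norm_sq (𝕜 := ℂ),
      ← inner_self_eq_norm_sq (𝕜 := ℂ), h1, h2]
  have ha : ∀ η, ‖a η‖ ≤ ‖η‖ := fun η => by
    rw [← hj, h3]
    exact (y.le_opNorm η).trans (mul_le_of_le_one_left (norm_nonneg _) hp.norm_le)
  have hyj : ∀ ξ, y (j ξ) = j ξ := fun ξ => by rw [← h3, h2]
  have hay : ∀ η, a (y η) = a η := fun η => by rw [← h3, h2]
  refine ⟨⟨cor_sub M y hy j a h1 h2 h3, ?_⟩, fun T => Iff.rfl, fun hs P hP hPN => ?_⟩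
  · refine Set.Subset.antisymm (fun T hT => ?_) Set.subset_centralizer_centralizer
    change j ∘L T ∘L a ∈ M
    refine mem_of_comm fun t ht => ?_
    have hty : ∀ η, t (y η) = y (t η) := fun η => (congrArg (fun f : Bdd H => f η) (ht y hy)).symm
    have h0 : (a ∘L t ∘L j : Bdd K) ∈
        Set.centralizer (cor_sub M y hy j a h1 h2 h3).carrier := fun S hS => by
      ext1 ξ
      have e := congrArg (fun f : Bdd H => a (f (j ξ))) (ht _ hS)
      simpa only [ContinuousLinearMap.comp_apply, mul_apply_eq_comp, h2] using e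
    have h4 := hT _ h0
    ext1 η
    have e := congrArg (fun f : Bdd K => j (f (a η))) h4
    simp only [ContinuousLinearMap.comp_apply, mul_apply_eq_comp, h3] at e ⊢
    rw [← hty, hyj, hty, hay] at e
    exact e
  · obtain ⟨g, hg, hg'⟩ := hs ((fun T : Bdd K => (j ∘L T ∘L a : Bdd H)) '' P) (hP.image _) (by
      rintro _ ⟨T, hT, rfl⟩
      refine ⟨(hPN T hT).1, ContinuousLinearMap.opNorm_le_bound _ zero_le_one fun η => ?_⟩
      simp only [ContinuousLinearMap.comp_apply, hj, one_mul]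
      exact (T.le_opNorm _).trans
        ((mul_le_of_le_one_left (norm_nonneg _) (hPN T hT).2).trans (ha η)))
    choose f hf hf' using hg
    refine ⟨f, hf, fun p hp' => ?_⟩
    obtain ⟨l, hl, hw⟩ := hg' _ ⟨p, hp', rfl⟩
    refine ⟨l, hl, fun ξ η => ?_⟩
    have e := hw (j ξ) (j η)
    simpa only [← hf', ContinuousLinearMap.comp_apply, h1, h2] using e

end

theorem s_cor : S_cor.{u} := by
  intro H _ _ _ M y hy hp
  have hyy : ∀ η, y (y η) = y η := fun η =>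
    congrArg (fun f : Bdd H => f η) hp.isIdempotentElem.eq
  let K : Submodule ℂ H := (1 - y).ker
  have hK : ∀ ξ, ξ ∈ K ↔ y ξ = ξ := fun ξ => by
    change (1 - y) ξ = 0 ↔ _
    rw [sub_apply, one_apply_eq_self, sub_eq_zero, eq_comm]
  have : CompleteSpace K := (ContinuousLinearMap.isClosed_ker (1 - y)).completeSpace_coe
  let a : H →L[ℂ] K := y.codRestrict K fun η => (hK _).2 (hyy η)
  have h1 : ∀ (ξ : K) (η : H), ⟪K.subtypeL ξ, η⟫_ℂ = ⟪ξ, a η⟫_ℂ := fun ξ η => by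
    change ⟪(ξ : H), η⟫_ℂ = ⟪(ξ : H), y η⟫_ℂ
    rw [← ContinuousLinearMap.adjoint_inner_left, ← ContinuousLinearMap.star_eq_adjoint,
      hp.isSelfAdjoint.star_eq, (hK _).1 ξ.2]
  have h2 : ∀ ξ : K, a (K.subtypeL ξ) = ξ := fun ξ => Subtype.ext ((hK _).1 ξ.2)
  have h3 : ∀ η, K.subtypeL (a η) = y η := fun _ => rfl
  obtain ⟨N, hN, hS⟩ := cor_main M y hy hp K.subtypeL a h1 h2 h3
  exact ⟨K, inferInstance, inferInstance, inferInstance, N, K.subtypeL, a, h1, h2, h3, hN, hS⟩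

end Vale.Agent.P085.G
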