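import Vale.Agent.P085b.Stm

/-! One self-adjoint element encodes orthogonal projections and one element in each corner. -/

namespace Vale.Agent.P085.G

open Filter Topology

universe u

section Abs

variable {A : Type u} [CStarAlgebra A]

theorem diag_norm_sym {z : A} (hz : star z = z) (hzz : z * z = 1) : ‖z‖ ≤ 1 := by
  have h1 : ‖z‖ * ‖z‖ ≤ 1 := by
    rw [← CStarRing.norm_star_mul_self, hz, hzz]
    exact IsStarProjection.norm_le _ (IsStarProjection.one A)
  nlinarith [norm_nonneg z]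

theorem diag_sign_mem {S : StarSubalgebra ℂ A} [IsClosed (S : Set A)] {z k : A} (hz : star z = z)
    (hzz : z * z = 1) (hk : star k = k) (hc : k * z = z * k) (hn : ‖k‖ < 1) (h : z + k ∈ S) :
    z ∈ S := by
  let _ := CStarAlgebra.spectralOrder A
  have _ := CStarAlgebra.spectralOrderedRing A
  have hzz' : ∀ w, z * (z * w) = w := fun w => by rw [← mul_assoc, hzz, one_mul]
  have h1 : ‖z * k‖ < 1 := ((norm_mul_le z k).trans
    (mul_le_of_le_one_left (norm_nonneg k) (diag_norm_sym hz hzz))).trans_lt hn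
  have h2 : IsSelfAdjoint (-(z * k)) := by
    rw [IsSelfAdjoint, star_neg, star_mul, hz, hk, hc]
  have h3 : 0 ≤ 1 - -(z * k) := by
    refine sub_nonneg.2 (h2.le_algebraMap_norm_self.trans ?_)
    rw [← map_one (algebraMap ℝ A), norm_neg]
    exact algebraMap_mono _ h1.le
  have h4 : (z + k) * (z + k) = (1 - -(z * k)) * (1 - -(z * k)) := by
    have : z * k * (z * k) = k * k := by rw [mul_assoc, ← mul_assoc k, hc, mul_assoc, hzz']
    simp only [sub_neg_eq_add, mul_add, add_mul, this, hc, hzz, mul_one, one_mul]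
  have h5 : 1 - -(z * k) ∈ S := by
    rw [← CFC.sqrt_mul_self _ h3, CFC.sqrt_eq_real_sqrt _ (by
      nth_rewrite 1 [← h3.isSelfAdjoint.star_eq]
      exact star_mul_self_nonneg _), ← h4]
    exact cfcₙ_mem (𝕜' := ℂ) _ (mul_mem h h)
  obtain ⟨T, hT⟩ := (StarSubalgebra.coe_isUnit S (a := ⟨_, h5⟩)).1
    (Units.oneSub (-(z * k)) (by rwa [norm_neg])).isUnit
  have h6 : (1 - -(z * k)) * ((T⁻¹ : Sˣ) : S) = 1 := by
    have := congrArg Subtype.val T.mul_inv
    rwa [hT] at this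
  have h7 : z = (z + k) * ((T⁻¹ : Sˣ) : S) := by
    calc z = z * ((1 - -(z * k)) * ((T⁻¹ : Sˣ) : S)) := by rw [h6, mul_one]
      _ = _ := by rw [← mul_assoc, sub_neg_eq_add, mul_add, mul_one, hzz']
  rw [h7]
  exact mul_mem h (Subtype.prop _)

theorem diag_series {e a : ℕ → A} (he : ∀ n, IsStarProjection (e n))
    (ha : ∀ n, star (a n) = a n) (hea : ∀ n, e n * a n = a n) (hn : ∀ n, ‖a n‖ ≤ 1)
    (ho : ∀ i j, i ≠ j → e i * e j = 0) :
    ∃ h : A, star h = h ∧
      (∀ S : StarSubalgebra ℂ A, IsClosed (S : Set A) → (∀ n, e n ∈ S ∧ a n ∈ S) → h ∈ S) ∧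
      ∀ S : StarSubalgebra ℂ A, IsClosed (S : Set A) → h ∈ S → ∀ n, e n ∈ S ∧ a n ∈ S := by
  have es : ∀ n, star (e n) = e n := fun n => (he n).isSelfAdjoint
  have ee : ∀ n, e n * e n = e n := fun n => (he n).isIdempotentElem
  have hae : ∀ n, a n * e n = a n := fun n => by
    simpa only [star_mul, es, ha] using congrArg star (hea n)
  obtain ⟨x, hx⟩ : ∃ x : ℕ → A, ∀ m, x m = 1 - (2 : ℂ) • e m := ⟨_, fun _ => rfl⟩
  have h1 : ∀ m, star (x m) = x m := fun m => by simp [hx, es]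
  have h2 : ∀ m, x m * x m = 1 := fun m => by
    simp only [hx, mul_sub, sub_mul, mul_smul_comm, smul_mul_assoc, ee, one_mul, mul_one]
    module
  obtain ⟨y, hy⟩ : ∃ y : ℕ → A, ∀ m, y m = x m + (10⁻¹ : ℂ) • a m := ⟨_, fun _ => rfl⟩
  have na : ∀ m, ‖(10⁻¹ : ℂ) • a m‖ ≤ 10⁻¹ := fun m => by
    rw [norm_smul, norm_inv, Complex.norm_ofNat]
    exact mul_le_of_le_one_right (by positivity) (hn m)
  have ny : ∀ m, ‖y m‖ ≤ 1 + 10⁻¹ := fun m => by
    rw [hy]
    exact (norm_add_le _ _).trans (add_le_add (diag_norm_sym (h1 m) (h2 m)) (na m))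
  have sy : ∀ m, star (y m) = y m := fun m => by simp [hy, h1, ha]
  have ey : ∀ m j, m ≠ j → e m * y j = e m := fun m j h => by
    rw [hy, hx, ← hea j, mul_add, mul_sub, mul_smul_comm, mul_smul_comm, ← mul_assoc, ho m j h]
    simp
  set t : ℕ → A := fun m => ∑' k, (3⁻¹ : ℂ) ^ k • y (k + m) with ht
  have hb : ∀ m k, ‖(3⁻¹ : ℂ) ^ k • y (k + m)‖ ≤ 3⁻¹ ^ k * (1 + 10⁻¹) := fun m k => by
    rw [norm_smul, norm_pow, norm_inv, Complex.norm_ofNat]
    exact mul_le_mul_of_nonneg_left (ny _) (by positivity)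
  have hg := (hasSum_geometric_of_lt_one (r := 3⁻¹) (by norm_num) (by norm_num)).mul_right
    (1 + 10⁻¹)
  have hsum : ∀ m, Summable fun k => (3⁻¹ : ℂ) ^ k • y (k + m) := fun m =>
    hg.summable.of_norm_bounded (hb m)
  have hs : ∀ m, star (t m) = t m := fun m => by simp [ht, tsum_star, sy]
  have hrec : ∀ m, t m = x m + ((10⁻¹ : ℂ) • a m + (3⁻¹ : ℂ) • t (m + 1)) := fun m => by
    rw [ht]
    dsimp only
    rw [(hsum m).tsum_eq_zero_add, ← tsum_const_smul'', ← add_assoc, ← hy]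
    simp only [pow_zero, zero_add, one_smul, smul_smul, pow_succ', add_assoc, add_comm 1 m]
  have et : ∀ m, e m * t (m + 1) = (1 - 3⁻¹ : ℂ)⁻¹ • e m := fun m => by
    refine ((hsum (m + 1)).hasSum.mul_left (e m)).unique ?_
    have e1 : ∀ k, e m * ((3⁻¹ : ℂ) ^ k • y (k + (m + 1))) = (3⁻¹ : ℂ) ^ k • e m := fun k => by
      rw [mul_smul_comm, ey m _ (by omega)]
    simp only [e1]
    exact (hasSum_geometric_of_norm_lt_one (by norm_num)).smul_const _
  have te : ∀ m, t (m + 1) * e m = (1 - 3⁻¹ : ℂ)⁻¹ • e m := fun m => by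
    simpa only [star_mul, es, hs, star_smul, star_inv₀, star_sub, star_one, star_ofNat] using
      congrArg star (et m)
  refine ⟨t 0, hs 0, fun S hS hm => ?_, fun S _ h0 => ?_⟩
  · refine hS.mem_of_tendsto (hsum 0).hasSum (Eventually.of_forall fun s =>
      sum_mem fun k _ => SMulMemClass.smul_mem _ ?_)
    rw [hy, hx]
    exact add_mem (sub_mem (one_mem _) (SMulMemClass.smul_mem _ (hm _).1))
      (SMulMemClass.smul_mem _ (hm _).2)
  have key : ∀ m, t m ∈ S → (e m ∈ S ∧ a m ∈ S) ∧ t (m + 1) ∈ S := fun m hm => by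
    have k1 : x m ∈ S := by
      refine diag_sign_mem (h1 m) (h2 m) (by simp [hs, ha]) ?_ ?_ (hrec m ▸ hm)
      · simp only [hx, mul_sub, sub_mul, mul_add, add_mul, mul_smul_comm, smul_mul_assoc, one_mul,
          mul_one, hea, hae, et, te]
        module
      · refine (norm_add_le _ _).trans_lt ?_
        have b1 : ‖t (m + 1)‖ ≤ _ := tsum_of_norm_bounded hg (hb (m + 1))
        have b2 := na m
        rw [norm_smul (3⁻¹ : ℂ), norm_inv, Complex.norm_ofNat]
        norm_num at b1 b2 ⊢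
        linarith
    have k2 : e m ∈ S := by
      have : e m = (2⁻¹ : ℂ) • (1 - x m) := by rw [hx]; module
      rw [this]
      exact SMulMemClass.smul_mem _ (sub_mem (one_mem _) k1)
    have k3 := sub_mem hm k1
    rw [hrec m, add_sub_cancel_left] at k3
    have k4 : a m ∈ S := by
      have : a m = (10 : ℂ) • (e m * ((10⁻¹ : ℂ) • a m + (3⁻¹ : ℂ) • t (m + 1))
          - (2⁻¹ : ℂ) • e m) := by
        simp only [mul_add, mul_smul_comm, hea, et]
        match_scalars <;> norm_num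
      rw [this]
      exact SMulMemClass.smul_mem _ (sub_mem (mul_mem k2 k3) (SMulMemClass.smul_mem _ k2))
    refine ⟨⟨k2, k4⟩, ?_⟩
    have : t (m + 1) = (3 : ℂ) • ((10⁻¹ : ℂ) • a m + (3⁻¹ : ℂ) • t (m + 1)
        - (10⁻¹ : ℂ) • a m) := by module
    rw [this]
    exact SMulMemClass.smul_mem _ (sub_mem k3 (SMulMemClass.smul_mem _ k4))
  have key2 : ∀ m, t m ∈ S := fun m => by
    induction m with
    | zero => exact h0
    | succ m ih => exact (key m ih).2
  exact fun k => (key k (key2 k)).1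

end Abs

theorem s_diag : S_diag.{u} := by
  intro H _ _ _ M e a h ho
  obtain ⟨w, h1, h2, h3⟩ := diag_series (fun n => (h n).2.2.1) (fun n => (h n).2.2.2.1)
    (fun n => (h n).2.2.2.2.1) (fun n => (h n).2.2.2.2.2) ho
  refine ⟨w, h2 M.toStarSubalgebra (isClosed_vn M) fun n => ⟨(h n).1, (h n).2.1⟩, h1,
    fun t ht n => ?_⟩
  have k : ∀ v, v ∈ StarSubalgebra.centralizer ℂ {t} ↔ t * v = v * t ∧ star t * v = v * star t :=
    fun v => by simp [StarSubalgebra.mem_centralizer_iff]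
  have h4 := h3 (StarSubalgebra.centralizer ℂ {t}) (Set.isClosed_centralizer _)
    ((k w).2 ⟨ht, by simpa only [star_mul, h1] using (congrArg star ht).symm⟩) n
  exact ⟨((k _).1 h4.1).1, ((k _).1 h4.2).1⟩

end Vale.Agent.P085.G
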