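import Vale.Agent.P085b.Stm

/-! Finite continuous algebras with a faithful normal trace. -/

namespace Vale.Agent.P085.G

open Filter Topology
open scoped InnerProductSpace ComplexOrder

universe u

theorem fin_sep {A : Type u} [CStarAlgebra A] [Tr A] [WTr A] (g : ℕ → A) (hg : ∀ n, ‖g n‖ ≤ 1)
    (hl : ∀ x : A, ‖x‖ ≤ 1 → ∃ l : Filter ℕ, l.NeBot ∧
      ∀ c, Tendsto (fun n => τ (c * g n)) l (𝓝 (τ (c * x)))) :
    TopologicalSpace.SeparableSpace (LL A) := by
  let _ : InnerProductSpace ℝ (LL A) := InnerProductSpace.rclikeToReal ℂ _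
  set K : Submodule ℂ (LL A) :=
    (Submodule.span ℂ (Set.range fun n => toL (g n))).topologicalClosure with hK
  have hKc : IsClosed (K : Set (LL A)) := Submodule.isClosed_topologicalClosure _
  have hKs : TopologicalSpace.IsSeparable (K : Set (LL A)) :=
    (Set.countable_range _).isSeparable.span.closure
  have hgK : ∀ n, toL (g n) ∈ K := fun n =>
    Submodule.le_topologicalClosure _ (Submodule.subset_span ⟨n, rfl⟩)
  have hcomp : IsComplete {x : LL A | toL.symm x ∈ {y : A | ‖y‖ ≤ 1 ∧ toL y ∈ K}} :=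
    isComplete_of_seq (fun x hx => hx.1) fun u x hu h =>
      ⟨norm_le_of_T2 (fun n => (hu n).1) h,
        hKc.mem_of_tendsto h (Eventually.of_forall fun n => (hu n).2)⟩
  have hconv : Convex ℝ {x : LL A | toL.symm x ∈ {y : A | ‖y‖ ≤ 1 ∧ toL y ∈ K}} :=
    fun x hx y hy a b ha hb hab => ⟨norm_convex_le hx.1 hy.1 ha hb hab,
      K.add_mem (K.smul_mem (a : ℂ) hx.2) (K.smul_mem (b : ℂ) hy.2)⟩
  have hb : TopologicalSpace.IsSeparable {x : LL A | ‖toL.symm x‖ ≤ 1} := by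
    refine hKs.mono fun x hx => ?_
    obtain ⟨v, hv, h⟩ := exists_norm_eq_iInf_of_complete_convex
      (K := {x : LL A | toL.symm x ∈ {y : A | ‖y‖ ≤ 1 ∧ toL y ∈ K}})
      ⟨toL (g 0), hg 0, hgK 0⟩ hcomp hconv x
    have h2 := (norm_eq_iInf_iff_real_inner_le_zero hconv hv).1 h
    obtain ⟨l, hl0, hl1⟩ := hl (toL.symm x) hx
    set w : A := toL.symm x - toL.symm v with hw
    have h3 : Tendsto (fun n => (τ (star w * (g n - toL.symm v))).re) l
        (𝓝 (τ (star w * w)).re) := by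
      have := (Complex.continuous_re.tendsto _).comp
        ((hl1 (star w)).sub_const (τ (star w * toL.symm v)))
      simpa only [Function.comp_def, ← map_sub, ← mul_sub, ← hw] using this
    have h4 : (τ (star w * w)).re ≤ 0 :=
      le_of_tendsto' h3 fun n => h2 (toL (g n)) ⟨hg n, hgK n⟩
    rw [← n2_sq] at h4
    have h5 : toL.symm x = toL.symm v := sub_eq_zero.1 (n2_eq_zero_of_sq_le h4)
    rw [toL.symm.injective h5]
    exact hv.2
  refine TopologicalSpace.isSeparable_univ_iff.1 ((TopologicalSpace.IsSeparable.iUnion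
    fun n : ℕ => hb.image (continuous_const_smul (((n : ℝ) + 1 : ℝ) : ℂ))).mono fun x _ => ?_)
  obtain ⟨n, hx⟩ := exists_nat_ge ‖toL.symm x‖
  have h0 : (0 : ℝ) < n + 1 := by positivity
  refine Set.mem_iUnion.2 ⟨n, ((((n : ℝ) + 1)⁻¹ : ℝ) : ℂ) • x, ?_, ?_⟩
  · rw [Set.mem_ofPred_eq, map_smul, norm_smul, Complex.norm_real,
      Real.norm_of_nonneg (inv_pos.2 h0).le, inv_mul_le_iff₀ h0]
    linarith
  · simp only [smul_smul, ← Complex.ofReal_mul, mul_inv_cancel₀ h0.ne', Complex.ofReal_one,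
      one_smul]

theorem s_fin (hs : S_single.{u}) : S_fin.{u} := by
  intro H _ _ _ M hsp ⟨⟨J, _, ζ, ζ', h1, h2, h3, h4⟩, h5⟩
  have := isClosed_vn M
  let _ : Tr M.toStarSubalgebra := trOfSub M.toStarSubalgebra (vt ζ ζ')
    (fun x _ y _ => by simp [vt, Finset.sum_add_distrib])
    (fun c x _ => by simp [vt, Finset.mul_sum]) h1 h2 h3
    (fun x hx h => by simpa using h4 x hx h)
  have hn : ∀ (l : Filter ℕ) (u : ℕ → M.toStarSubalgebra) (x : M.toStarSubalgebra),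
      (∀ n, ‖u n‖ ≤ 1) → ‖x‖ ≤ 1 →
      WL l (fun n => M.toStarSubalgebra.subtype (u n)) (M.toStarSubalgebra.subtype x) →
      Tendsto (fun n => τ (u n)) l (𝓝 (τ x)) := fun l u x _ _ h =>
    tendsto_finsetSum Finset.univ fun j _ => h (ζ j) (ζ' j)
  have hc : ∀ u : ℕ → M.toStarSubalgebra, (∀ n, ‖u n‖ ≤ 1) → ∃ x : M.toStarSubalgebra, ‖x‖ ≤ 1 ∧
      WL (hyperfilter ℕ) (fun n => M.toStarSubalgebra.subtype (u n))
        (M.toStarSubalgebra.subtype x) := fun u hu => by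
    obtain ⟨x, hx, h⟩ := exists_WL (hyperfilter ℕ) (u := fun n => (u n : Bdd H)) hu
    exact ⟨⟨x, h.mem (N := M) fun n => (u n).2⟩, hx, h⟩
  have := wTr_of_normal M.toStarSubalgebra.subtype hn hc
  obtain ⟨g, hg, hl⟩ := hsp {p | p ∈ M ∧ ‖p‖ ≤ 1} ⟨0, zero_mem _, by simp⟩ fun p hp => hp
  have := fin_sep (A := M.toStarSubalgebra) (fun n => ⟨g n, (hg n).1⟩) (fun n => (hg n).2)
    fun x hx => by
      obtain ⟨l, hl0, hl1⟩ := hl x ⟨x.2, hx⟩
      exact ⟨l, hl0, tendsto_τ_mul M.toStarSubalgebra.subtype hn (fun n => (hg n).2) hx hl1⟩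
  obtain ⟨w, hw⟩ := hs M.toStarSubalgebra (Nil.top (Q := M.toStarSubalgebra)
    fun r hr r1 r2 r0 => h5 r hr r1 r2 (one_mul r) r0)
  exact ⟨w, w.2, fun N hN y hy =>
    hw _ (isW_comap M.toStarSubalgebra.subtype hn hc N) hN ⟨y, hy⟩⟩

end Vale.Agent.P085.G
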