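import Vale.Agent.P085b.Stm

/-! Asymptotically free unitaries relative to the centre. -/

set_option linter.unusedSectionVars false

namespace Vale.Agent.P085.G

open Filter Topology Finset

universe u

variable {A : Type u} [CStarAlgebra A] [Tr A] {E : A →ₗ[ℂ] A}

theorem free_sq_step {m q e : A} {B t : ℝ} (hm : n2 m ≤ 1) (hq : n2 q ≤ B)
    (he : n2 e ≤ 2 * B * t ^ 3) (ht0 : 0 ≤ t) (ht1 : t ≤ 1) :
    n2 (m + ((t : ℂ) ^ 2 • q + e)) ^ 2
      ≤ n2 m ^ 2 + (4 * B + 9 * B ^ 2) * t ^ 3 + 2 * t ^ 2 * (τ (star m * q)).re := by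
  have hB : 0 ≤ B := (n2_nonneg _).trans hq
  have h1 : n2 ((t : ℂ) ^ 2 • q + e) ≤ 3 * B * t ^ 2 := by
    refine (n2_add_le _ _).trans ?_
    rw [n2_smul, norm_pow, Complex.norm_real, Real.norm_of_nonneg ht0]
    have := mul_le_mul_of_nonneg_left hq (sq_nonneg t)
    have := mul_le_mul_of_nonneg_left ht1 (by positivity : 0 ≤ B * t ^ 2)
    nlinarith
  have h2 : n2 ((t : ℂ) ^ 2 • q + e) ^ 2 ≤ 9 * B ^ 2 * t ^ 3 := by
    have := pow_le_pow_left₀ (n2_nonneg _) h1 2
    have := mul_le_mul_of_nonneg_left ht1 (by positivity : 0 ≤ B ^ 2 * t ^ 3)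
    nlinarith
  have h3 : (τ (star m * e)).re ≤ 2 * B * t ^ 3 := by
    refine (Complex.re_le_norm _).trans ((norm_τ_mul_le _ _).trans ?_)
    rw [n2_star]
    exact (mul_le_of_le_one_left (n2_nonneg _) hm).trans he
  have h4 : (τ (star m * ((t : ℂ) ^ 2 • q + e))).re
      = t ^ 2 * (τ (star m * q)).re + (τ (star m * e)).re := by
    rw [← Complex.ofReal_pow, mul_add, map_add, Complex.add_re, mul_smul_comm, map_smul,
      smul_eq_mul, Complex.re_ofReal_mul]
  rw [n2_add_sq, h4]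
  linarith

section

variable {β : Type} {N : StarSubalgebra ℂ A} {l : Filter (Mean A)} (hl : Mixing E N l)
  {Z a b : β → A} {e : β → ℂ}
include hl

theorem free_fst (hE : CE E) (L : List β) (Y : A) {η : ℝ} (hη : 0 < η) :
    ∀ᶠ μ in l, ∀ p ∈ μ.supp, n2 (E (Y * P1 Z (fun x => e x • (a x * p * b x)) L)) ≤ η := by
  induction L generalizing Y η with
  | nil => exact Eventually.of_forall fun μ p _ => by simpa [P1, n2_zero] using hη.le
  | cons x L ih =>
    filter_upwards [ih (Y * Z x) (half_pos hη),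
      hl.fst (e x • (b x * (L.map Z).prod * Y * a x)) _ (half_pos hη)] with μ h1 h2 p hp
    have e1 : E (Y * (e x • (a x * p * b x) * (L.map Z).prod))
        = E (p * e x • (b x * (L.map Z).prod * Y * a x)) := by
      simp only [mul_smul_comm, smul_mul_assoc, map_smul]
      rw [← mul_assoc, ← mul_assoc, ← mul_assoc, mul_assoc (Y * a x), mul_assoc (Y * a x), hE.comm]
      simp only [mul_assoc]
    rw [P1, mul_add, map_add, e1, ← mul_assoc]
    exact (n2_add_le _ _).trans (by linarith [h1 p hp, h2 p hp])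

theorem free_snd_aux (hZ : ∀ x, ‖Z x‖ ≤ 1) (hb : ∀ x, ‖b x‖ ≤ 1) (he : ∀ x, ‖e x‖ ≤ 1)
    {ρ C : ℝ} (hρ : 0 ≤ ρ) {Y : A} (hY : n2 Y ≤ C) (L : List β) (V : A)
    (h : ∀ L1 x L2, L = L1 ++ x :: L2 → e x ≠ 0 → n2 (E (V * (L1.map Z).prod * a x)) ≤ ρ)
    {η : ℝ} (hη : 0 < η) :
    ∀ᶠ μ in l, μ.E (fun p => (τ (Y * p * V * P1 Z (fun x => e x • (a x * p * b x)) L)).re)
      ≤ L.length * (ρ * C) + η := by
  induction L generalizing V η with
  | nil => exact Eventually.of_forall fun μ => by simpa [P1, μ.const] using hη.le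
  | cons x L ih =>
    filter_upwards [ih (V * Z x) (fun L1 x' L2 h1 h2 => by
        have := h (x :: L1) x' L2 (by rw [h1]; rfl) h2
        rwa [List.map_cons, List.prod_cons, ← mul_assoc] at this) (half_pos hη),
      hl.snd (V * a x) (e x • (b x * (L.map Z).prod * Y)) _ (half_pos hη)] with μ h1 h2
    have e1 : ∀ p, (τ (Y * p * V * P1 Z (fun x => e x • (a x * p * b x)) (x :: L))).re
        = (τ (p * (V * a x) * p * e x • (b x * (L.map Z).prod * Y))).re
          + (τ (Y * p * (V * Z x) * P1 Z (fun x => e x • (a x * p * b x)) L)).re := by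
      intro p
      rw [P1, mul_add, map_add, Complex.add_re, mul_assoc Y, mul_assoc Y, τ_comm Y]
      simp only [mul_smul_comm, smul_mul_assoc, mul_assoc]
    have h3 : n2 (E (V * a x)) * n2 (e x • (b x * (L.map Z).prod * Y)) ≤ ρ * C := by
      have hC := (n2_nonneg _).trans hY
      rcases eq_or_ne (e x) 0 with h0 | h0
      · rw [h0, zero_smul, n2_zero, mul_zero]
        positivity
      · have := h [] x L rfl h0
        rw [List.map_nil, List.prod_nil, mul_one] at this
        refine mul_le_mul this ?_ (n2_nonneg _) hρ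
        rw [n2_smul]
        exact (mul_le_of_le_one_left (n2_nonneg _) (he x)).trans
          ((n2_mul_le_of (norm_mul_le_one (hb x) (norm_P0_le hZ L)) Y).trans hY)
    simp only [e1, μ.add, List.length_cons]
    push_cast
    linarith

theorem free_snd (hZ : ∀ x, ‖Z x‖ ≤ 1) (ha : ∀ x, ‖a x‖ ≤ 1) (hb : ∀ x, ‖b x‖ ≤ 1)
    (he : ∀ x, ‖e x‖ ≤ 1) {ρ C : ℝ} (hρ : 0 ≤ ρ) (L : List β) {Y : A} (hY : n2 Y ≤ C)
    (h : ∀ L0 x L1 x' L2, L = L0 ++ x :: (L1 ++ x' :: L2) → e x ≠ 0 → e x' ≠ 0 →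
      n2 (E (b x * (L1.map Z).prod * a x')) ≤ ρ) {η : ℝ} (hη : 0 < η) :
    ∀ᶠ μ in l, μ.E (fun p => (τ (Y * P2 Z (fun x => e x • (a x * p * b x)) L)).re)
      ≤ L.length ^ 2 * (ρ * C) + η := by
  have hC := (n2_nonneg _).trans hY
  induction L generalizing Y η with
  | nil => exact Eventually.of_forall fun μ => by simpa [P2, μ.const] using hη.le
  | cons x L ih =>
    have h2 : ∀ᶠ μ in l, μ.E (fun p => (τ (e x • (Y * a x) * p * b x *
        P1 Z (fun x => e x • (a x * p * b x)) L)).re) ≤ L.length * (ρ * C) + η / 2 := by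
      rcases eq_or_ne (e x) 0 with h0 | h0
      · refine Eventually.of_forall fun μ => ?_
        simp only [h0, zero_smul, zero_mul, map_zero, Complex.zero_re, μ.const]
        positivity
      · refine free_snd_aux hl hZ hb he hρ ?_ L _
          (fun L1 x' L2 h1 h2 => h [] x L1 x' L2 (by rw [h1]; rfl) h0 h2) (half_pos hη)
        rw [n2_smul]
        exact (mul_le_of_le_one_left (n2_nonneg _) (he x)).trans
          ((n2_mul_le_of' Y (ha x)).trans hY)
    filter_upwards [h2, ih ((n2_mul_le_of' Y (hZ x)).trans hY)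
      (fun L0 x' L1 x'' L2 h1 => h (x :: L0) x' L1 x'' L2 (by rw [h1]; rfl)) (half_pos hη)]
      with μ h2 h1
    have e1 : ∀ p, (τ (Y * P2 Z (fun x => e x • (a x * p * b x)) (x :: L))).re
        = (τ (e x • (Y * a x) * p * b x * P1 Z (fun x => e x • (a x * p * b x)) L)).re
          + (τ (Y * Z x * P2 Z (fun x => e x • (a x * p * b x)) L)).re := by
      intro p
      rw [P2, mul_add, map_add, Complex.add_re]
      simp only [mul_smul_comm, smul_mul_assoc, mul_assoc]
    simp only [e1, μ.add, List.length_cons]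
    push_cast
    have : 0 ≤ (L.length + 1 : ℝ) * (ρ * C) := by positivity
    nlinarith

end

variable {α : Type} [Fintype α] [DecidableEq α]

theorem free_cross (hE : CE E) {y s : α → A} (hy : ∀ j, y j ∈ unitary A) (hs : ∀ j, s j ∈ unitary A)
    {L L0 L1 L2 : List (α × Bool)} {x x' : α × Bool} (hL : FreeGroup.IsReduced L)
    (e : L = L0 ++ x :: (L1 ++ x' :: L2)) (hx : x.1 = x'.1) :
    ∃ L', L' ≠ [] ∧ FreeGroup.IsReduced L' ∧ L'.length < L.length ∧
      E (cond x.2 (s x.1) (star (y x.1)) * (L1.map (lt y s)).prod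
        * cond x'.2 (y x'.1) (star (s x'.1))) = E (val y s L') := by
  obtain ⟨j, b⟩ := x
  obtain ⟨j', b'⟩ := x'
  obtain rfl : j = j' := hx
  have hlen : L.length = L0.length + L1.length + L2.length + 2 := by
    rw [e]; simp; ring
  have hne : b ≠ b' → L1 ≠ [] := by
    rintro hb rfl
    have := isReduced_mid hL (L1 := [(j, b), (j, b')]) ⟨L0, L2, by simp [e]⟩
    exact hb ((FreeGroup.isReduced_cons_cons.1 this).1 rfl)
  have h1 : FreeGroup.IsReduced L1 := isReduced_mid hL ⟨L0 ++ [(j, b)], (j, b') :: L2, by simp [e]⟩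
  cases b <;> cases b'
  · refine ⟨L1 ++ [(j, false)], by simp, isReduced_mid hL ⟨L0 ++ [(j, false)], L2, by simp [e]⟩,
      by simp; omega, ?_⟩
    rw [mul_assoc, hE.comm]
    simp [val, lt, mul_assoc]
  · refine ⟨L1, hne (by simp), h1, by omega, ?_⟩
    rw [hE.comm, ← mul_assoc, Bool.cond_true, Bool.cond_false, (hy j).2, one_mul, val]
  · refine ⟨L1, hne (by simp), h1, by omega, ?_⟩
    rw [hE.comm, ← mul_assoc, Bool.cond_true, Bool.cond_false, (hs j).1, one_mul, val]
  · refine ⟨(j, true) :: L1, by simp, isReduced_mid hL ⟨L0, (j, true) :: L2, by simp [e]⟩,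
      by simp; omega, ?_⟩
    rw [hE.comm]
    simp [val, lt, mul_assoc]

theorem free_step {N : StarSubalgebra ℂ A} {l : Filter (Mean A)} (hE : CE E) (hl : Mixing E N l)
    {y s : α → A} (hy : ∀ j, y j ∈ unitary A) (hs : ∀ j, s j ∈ unitary A) {t : ℝ} (ht0 : 0 < t)
    (ht1 : t ≤ 1) (j : α) {n : ℕ} {L : List (α × Bool)} (hL : FreeGroup.IsReduced L)
    (hn : L.length ≤ n) {ρ : ℝ} (hρ : 0 ≤ ρ)
    (h : ∀ L', L' ≠ [] → FreeGroup.IsReduced L' → L'.length < L.length →
      n2 (E (val y s L')) ≤ ρ) :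
    ∀ᶠ μ in l, μ.E (fun p => n2 (E (val y (Function.update s j (rot t p * s j)) L)) ^ 2)
      ≤ (L.map fun x => if x.1 = j then cst t else 1).prod ^ 2 * n2 (E (val y s L)) ^ 2
        + ((4 * 3 ^ n + 9 * (3 ^ n) ^ 2 + 2) * t ^ 3
          + 2 * t ^ 2 * (n ^ 2 * (ρ * n2 (E (val y s L))))) := by
  set a : α × Bool → A := fun x => cond x.2 (y x.1) (star (s x.1)) with ha
  set b : α × Bool → A := fun x => cond x.2 (s x.1) (star (y x.1)) with hb
  set e : α × Bool → ℂ := fun x => if x.1 = j then cond x.2 Complex.I (-Complex.I) else 0 with he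
  have ha1 : ∀ x, ‖a x‖ ≤ 1 := by
    rintro ⟨i, _ | _⟩
    exacts [norm_unitary_le (Unitary.star_mem (hs i)), norm_unitary_le (hy i)]
  have hb1 : ∀ x, ‖b x‖ ≤ 1 := by
    rintro ⟨i, _ | _⟩
    exacts [norm_unitary_le (Unitary.star_mem (hy i)), norm_unitary_le (hs i)]
  have hZ : ∀ x, ‖lt y s x‖ ≤ 1 := by
    rintro ⟨i, _ | _⟩
    exacts [norm_mul_le_one (ha1 (i, false)) (hb1 (i, false)),
      norm_mul_le_one (ha1 (i, true)) (hb1 (i, true))]
  have he1 : ∀ x, ‖e x‖ ≤ 1 := by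
    rintro ⟨i, _ | _⟩ <;> simp only [he] <;> split_ifs <;> simp
  set m := E (val y s L) with hm
  have hle : ∀ w, n2 (E w) ≤ ‖w‖ := fun w => (hE.n2_le w).trans (n2_le_norm w)
  have hm0 := n2_nonneg m
  have hm1 : n2 m ≤ 1 := (hle _).trans (norm_P0_le hZ L)
  have hY : n2 (star m) ≤ n2 m := (n2_star m).le
  filter_upwards [hl.sym, free_fst hl hE (Z := lt y s) (a := a) (b := b) (e := e) L 1
    (pow_pos ht0 2), free_snd hl hZ ha1 hb1 he1 hρ L hY (fun L0 x L1 x' L2 h1 h2 h3 => by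
      have k1 : x.1 = j := by by_contra hc; exact h2 (if_neg hc)
      have k2 : x'.1 = j := by by_contra hc; exact h3 (if_neg hc)
      obtain ⟨L', a1, a2, a3, a4⟩ := free_cross hE hy hs hL h1 (k1.trans k2.symm)
      exact (congrArg n2 a4).trans_le (h L' a1 a2 a3)) ht0] with μ h1 h2 h3
  obtain ⟨hk0, hk1⟩ := prod_bound t j L
  set k := (L.map fun x => if x.1 = j then cst t else 1).prod with hk
  have hk2 : k ^ 2 ≤ 1 := pow_le_one₀ hk0 hk1
  have hB : (3 : ℝ) ^ L.length ≤ 3 ^ n := pow_le_pow_right₀ (by norm_num) hn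
  have hB1 : (1 : ℝ) ≤ 3 ^ n := one_le_pow₀ (by norm_num)
  have key : ∀ p ∈ μ.supp, n2 (E (val y (Function.update s j (rot t p * s j)) L)) ^ 2
      ≤ k ^ 2 * (n2 m ^ 2 + (4 * 3 ^ n + 9 * (3 ^ n) ^ 2) * t ^ 3) + k ^ 2 * (2 * t ^ 2) *
        (τ (star m * P2 (lt y s) (fun x => e x • (a x * p * b x)) L)).re := by
    intro p hp
    obtain ⟨p1, p2, -⟩ := h1 p hp
    set D : α × Bool → A := fun x => e x • (a x * p * b x) with hD
    have hp1 : ‖p‖ ≤ 1 := norm_unitary_le ⟨by rw [p1, p2], by rw [p1, p2]⟩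
    have hD1 : ∀ x, ‖D x‖ ≤ 1 := fun x => by
      rw [hD, norm_smul]
      exact mul_le_one₀ (he1 x) (norm_nonneg _)
        (norm_mul_le_one (norm_mul_le_one (ha1 x) hp1) (hb1 x))
    have e1 : lt y (Function.update s j (rot t p * s j))
        = fun x => ((if x.1 = j then cst t else 1 : ℝ) : ℂ) • (lt y s x + (t : ℂ) • D x) := by
      funext ⟨i, c⟩
      rcases eq_or_ne i j with rfl | hij
      · cases c
        · simp only [lt, hD, he, ha, hb, Function.update_self, Bool.cond_false, if_true, star_mul,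
            star_rot t p1, mul_smul_comm, smul_mul_assoc, mul_sub, sub_mul, mul_one]
          module
        · simp only [lt, hD, he, ha, hb, Function.update_self, Bool.cond_true, if_true, rot,
            mul_smul_comm, smul_mul_assoc, mul_add, add_mul, one_mul, mul_assoc]
      · simp [lt, hD, he, hij]
    obtain ⟨-, k2, k3⟩ := norm_expand hZ hD1 ht0.le ht1 L
    set R := (L.map fun x => lt y s x + (t : ℂ) • D x).prod - (L.map (lt y s)).prod
      - (t : ℂ) • P1 (lt y s) D L - (t : ℂ) ^ 2 • P2 (lt y s) D L with hR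
    have e2 : E (L.map fun x => lt y s x + (t : ℂ) • D x).prod
        = m + ((t : ℂ) ^ 2 • E (P2 (lt y s) D L) + ((t : ℂ) • E (P1 (lt y s) D L) + E R)) := by
      simp only [hR, hm, val, map_sub, map_smul]
      abel
    have k4 := h2 p hp
    rw [one_mul] at k4
    have k5 := free_sq_step hm1 (((hle _).trans k2).trans hB)
      (e := (t : ℂ) • E (P1 (lt y s) D L) + E R) (by
        refine (n2_add_le _ _).trans ?_
        rw [n2_smul, Complex.norm_real, Real.norm_of_nonneg ht0.le]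
        have a1 := mul_le_mul_of_nonneg_left k4 ht0.le
        have a2 := (hle R).trans (k3.trans
          (mul_le_mul_of_nonneg_right hB (by positivity)))
        have a3 := mul_le_mul_of_nonneg_right hB1 (by positivity : 0 ≤ t ^ 3)
        linarith) ht0.le ht1
    rw [hE.tr _ _ (hE.cen _).star] at k5
    rw [val, e1, prod_map_smul, map_smul, n2_smul, mul_pow, Complex.norm_real,
      Real.norm_of_nonneg hk0, e2, mul_assoc, ← mul_add]
    exact mul_le_mul_of_nonneg_left k5 (by positivity)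
  refine (μ.mono key).trans ?_
  rw [μ.add, μ.const, μ.mul, mul_assoc, ← mul_add]
  have h4 : (L.length : ℝ) ^ 2 * (ρ * n2 m) ≤ n ^ 2 * (ρ * n2 m) := by gcongr
  have h5 := mul_le_mul_of_nonneg_left (h3.trans (add_le_add_left h4 t))
    (by positivity : 0 ≤ 2 * t ^ 2)
  have h6 := mul_le_mul_of_nonneg_right hk2 (by positivity : 0 ≤
    (4 * 3 ^ n + 9 * (3 ^ n) ^ 2 + 2) * t ^ 3 + 2 * t ^ 2 * (n ^ 2 * (ρ * n2 m)))
  have h7 := mul_le_mul_of_nonneg_left h5 (sq_nonneg k)
  linarith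

theorem free_exists [Nonempty α] {N : StarSubalgebra ℂ A} {l : Filter (Mean A)}
    (hE : CE E) (hl : Mixing E N l) {y : α → A} (hy : ∀ j, y j ∈ unitary A) (n : ℕ) {ε : ℝ}
    (hε : 0 < ε) :
    ∃ s : α → A, (∀ j, s j ∈ unitary A ∧ s j ∈ N) ∧
      ∀ L, L.length ≤ n → L ≠ [] → FreeGroup.IsReduced L → ‖τ (val y s L)‖ ≤ ε := by
  let W := {L : List (α × Bool) // L.length ≤ n ∧ L ≠ [] ∧ FreeGroup.IsReduced L}
  have : Finite W := ((List.finite_length_le (α × Bool) n).subset fun L hL => hL.1).to_subtype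
  let _ : Fintype W := Fintype.ofFinite W
  set c : ℝ := (Fintype.card α : ℝ) with hc
  have hc0 : 0 < c := by rw [hc]; exact_mod_cast Fintype.card_pos
  set K1 : ℝ := 4 * 3 ^ n + 9 * (3 ^ n) ^ 2 + 2 with hK1
  have hK : 0 < K1 := by positivity
  obtain ⟨s, hs, h⟩ := lyapunov (J := α) (G := {s : α → A | ∀ j, s j ∈ unitary A ∧ s j ∈ N})
    ⟨1, fun _ => ⟨one_mem _, one_mem _⟩⟩ (fun w : W => w.1.length)
    (fun w s => n2 (E (val y s w.1)) ^ 2) (fun _ _ => sq_nonneg _)
    (K := 4 * c ^ 2 * n ^ 4 + c * K1) (by positivity) (fun s hs t ht0 ht1 => by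
      have := hl.neBot
      set F : W → ℝ := fun w => ∑ w' : W with w'.1.length < w.1.length, n2 (E (val y s w'.1)) ^ 2
        with hF
      have hF0 : ∀ w, 0 ≤ F w := fun w => sum_nonneg fun _ _ => sq_nonneg _
      obtain ⟨μ, h1, h2⟩ := (hl.sym.and (eventually_all.2 fun j => eventually_all.2 fun w : W =>
        free_step hE hl hy (fun j => (hs j).1) ht0 ht1 j w.2.2.2 w.2.1 (Real.sqrt_nonneg (F w))
          fun L' a1 a2 a3 => Real.le_sqrt_of_sq_le (single_le_sum
            (f := fun w' : W => n2 (E (val y s w'.1)) ^ 2) (fun _ _ => sq_nonneg _)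
            (a := ⟨L', a3.le.trans w.2.1, a1, a2⟩) (mem_filter.2 ⟨mem_univ _, a3⟩)))).exists
      refine ⟨fun j => μ.map fun p => Function.update s j (rot t p * s j), fun j => ?_,
        fun w => ?_⟩
      · rintro _ ⟨p, hp, rfl⟩ i
        obtain ⟨p1, p2, p3⟩ := h1 p hp
        dsimp only
        rcases eq_or_ne i j with rfl | hij
        · rw [Function.update_self]
          exact ⟨mul_mem (rot_mem_unitary t p1 p2) (hs i).1, mul_mem (SMulMemClass.smul_mem _
            (add_mem (one_mem _) (SMulMemClass.smul_mem _ (SMulMemClass.smul_mem _ p3)))) (hs i).2⟩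
        · rw [Function.update_of_ne hij]
          exact hs i
      · obtain ⟨L, hL1, hL2, hL3⟩ := w
        obtain ⟨x, L, rfl⟩ := List.exists_cons_of_ne_nil hL2
        set w : W := ⟨x :: L, hL1, hL2, hL3⟩ with hw
        set m := n2 (E (val y s w.1)) with hm
        have hm0 : 0 ≤ m := n2_nonneg _
        have k1 : ∀ j, (w.1.map fun x => if x.1 = j then cst t else 1).prod ^ 2 * m ^ 2
            ≤ m ^ 2 - if j = x.1 then t ^ 2 / 2 * m ^ 2 else 0 := by
          intro j
          split_ifs with hj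
          · obtain ⟨a1, a2⟩ := prod_bound t j L
            have a3 : (w.1.map fun x => if x.1 = j then cst t else 1).prod ^ 2
                ≤ 1 - t ^ 2 / 2 := by
              rw [hw, List.map_cons, List.prod_cons, if_pos hj.symm, mul_pow]
              exact (mul_le_of_le_one_right (sq_nonneg _) (pow_le_one₀ a1 a2)).trans
                (cst_sq_le ht0.le ht1)
            nlinarith [mul_le_mul_of_nonneg_right a3 (sq_nonneg m)]
          · obtain ⟨a1, a2⟩ := prod_bound t j w.1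
            rw [sub_zero]
            exact mul_le_of_le_one_left (sq_nonneg _) (pow_le_one₀ a1 a2)
        refine (sum_le_sum fun j _ => (h2 j w).trans (add_le_add_left (k1 j) _)).trans ?_
        rw [sum_add_distrib, sum_sub_distrib, sum_ite_eq', if_pos (mem_univ _), sum_const,
          sum_const, card_univ, nsmul_eq_mul, nsmul_eq_mul, ← hc]
        change _ ≤ (c - t ^ 2 / 4) * m ^ 2 + (4 * c ^ 2 * n ^ 4 + c * K1) * t ^ 2 * F w + _
        have k2 := Real.sq_sqrt (hF0 w)
        have k3 := mul_nonneg (sq_nonneg t) (sq_nonneg (m / 2 - 2 * c * n ^ 2 * √(F w)))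
        have k4 : 0 ≤ c * K1 * t ^ 2 * F w :=
          mul_nonneg (mul_nonneg (mul_pos hc0 hK).le (sq_nonneg t)) (hF0 w)
        have k5 : 0 ≤ 4 * c ^ 2 * n ^ 4 * t ^ 3 := mul_nonneg (mul_nonneg
          (mul_nonneg zero_le_four (sq_nonneg c)) (pow_nonneg n.cast_nonneg 4)) (pow_pos ht0 3).le
        have k6 : 4 * c ^ 2 * n ^ 4 * t ^ 2 * √(F w) ^ 2 = 4 * c ^ 2 * n ^ 4 * t ^ 2 * F w := by
          rw [k2]
        rw [← hK1]
        linarith) (pow_pos hε 2)
  exact ⟨s, hs, fun L h1 h2 h3 => (hE.norm_τ_le _).trans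
    ((sq_le_sq₀ (n2_nonneg _) hε.le).1 (h ⟨L, h1, h2, h3⟩))⟩

theorem s_free : S_free.{u} := fun _ _ _ _ _ _ hE hl _ hy n _ hε => free_exists hE hl hy n hε

end Vale.Agent.P085.G
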