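import Vale.Agent.P085b.Stm

/-! Gluing the singly generated summands. -/

set_option linter.unusedSectionVars false

namespace Vale.Agent.P085.G

open Filter Topology
open scoped InnerProductSpace ComplexOrder

universe u

section Con

variable {H : Type u} [NormedAddCommGroup H] [InnerProductSpace ℂ H] [CompleteSpace H]
  {M : VonNeumannAlgebra H}

theorem glue_cp_mul {a b : Bdd H} (ha : CP M a) (hb : CP M b) : CP M (a * b) :=
  ⟨mul_mem ha.mem hb.mem, ha.proj.mul hb.proj (ha.comm b hb.mem), fun m hm => by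
    rw [mul_assoc, hb.comm m hm, ← mul_assoc, ha.comm m hm, mul_assoc]⟩

theorem glue_cp_compl {a : Bdd H} (ha : CP M a) : CP M (1 - a) :=
  ⟨sub_mem (one_mem M) ha.mem, ha.proj.one_sub, fun m hm => by
    rw [sub_mul, mul_sub, one_mul, mul_one, ha.comm m hm]⟩

theorem glue_cp_one : CP M 1 :=
  ⟨one_mem M, IsStarProjection.one _, fun m _ => by rw [one_mul, mul_one]⟩

theorem glue_cp_zero : CP M 0 :=
  ⟨zero_mem M, IsStarProjection.zero _, fun m _ => by rw [zero_mul, mul_zero]⟩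

theorem glue_smul_mem (c : ℂ) {a : Bdd H} (ha : a ∈ M) : c • a ∈ M :=
  SMulMemClass.smul_mem (s := M.toStarSubalgebra) c ha

theorem glue_ker (g : ℕ → Bdd H) (hg : ∀ n, CP M (g n)) :
    ∃ z, CP M z ∧ (∀ n ξ, g n (z ξ) = 0) ∧ ∀ ξ, (∀ n, g n ξ = 0) → z ξ = ξ := by
  let K : Submodule ℂ H := ⨅ n, (g n).ker
  have hK : ∀ ξ, ξ ∈ K ↔ ∀ n, g n ξ = 0 := fun ξ => by
    simp only [K, Submodule.mem_iInf, LinearMap.mem_ker, ContinuousLinearMap.coe_coe]
  have hcl : IsClosed (K : Set H) := by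
    have : (K : Set H) = ⋂ n, {ξ | g n ξ = 0} := by
      ext ξ; simp only [SetLike.mem_coe, hK, Set.mem_iInter, Set.mem_ofPred_eq]
    rw [this]
    exact isClosed_iInter fun n => isClosed_eq (g n).continuous continuous_const
  have : CompleteSpace K := hcl.completeSpace_coe
  have inv : ∀ t : Bdd H, (∀ n, g n * t = t * g n) → ∀ ξ ∈ K, t ξ ∈ K := by
    intro t ht ξ hξ
    refine (hK _).2 fun n => ?_
    have := congrArg (fun T : Bdd H => T ξ) (ht n)
    simp only [mul_apply_eq_comp, (hK ξ).1 hξ n, map_zero] at this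
    exact this
  have hp : IsStarProjection K.starProjection := isStarProjection_starProjection
  have key : ∀ m ∈ M, K.starProjection * m * K.starProjection = m * K.starProjection := by
    intro m hm
    ext1 ξ
    simp only [mul_apply_eq_comp]
    exact Submodule.starProjection_eq_self_iff.2
      (inv m (fun n => (hg n).comm m hm) _ (K.starProjection_apply_mem ξ))
  refine ⟨K.starProjection, ⟨proj_mem K fun t ht => inv t fun n => ht _ (hg n).mem, hp,
    fun m hm => ?_⟩, fun n ξ => (hK _).1 (K.starProjection_apply_mem ξ) n,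
    fun ξ hξ => Submodule.starProjection_eq_self_iff.2 ((hK ξ).2 hξ)⟩
  have h1 := congrArg star (key (star m) (star_mem hm))
  simp only [star_mul, star_star, hp.isSelfAdjoint.star_eq] at h1
  rw [← h1, ← mul_assoc, key m hm]

theorem glue_seq (hs : Sp M)
    (h : ∀ z, CP M z → z ≠ 0 → ∃ y, CP M y ∧ y ≠ 0 ∧ z * y = y ∧ Good M y) :
    ∃ g : ℕ → Bdd H, (∀ n, CP M (g n) ∧ Good M (g n)) ∧ ∀ ξ, (∀ n, g n ξ = 0) → ξ = 0 := by
  obtain ⟨g, hg, hl⟩ := hs {y | CP M y ∧ Good M y}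
    ⟨0, glue_cp_zero, 0, zero_mem M, 0, zero_mem M, star_zero _, star_zero _,
      fun t _ _ _ m _ => by simp⟩ (fun p hp => ⟨hp.1.mem, hp.1.proj.norm_le _⟩)
  refine ⟨g, hg, fun ξ hξ => ?_⟩
  obtain ⟨z, hz, z1, z2⟩ := glue_ker g fun n => (hg n).1
  have z0 : z = 0 := by
    by_contra z0
    obtain ⟨y, y1, y2, y3, y4⟩ := h z hz z0
    obtain ⟨l, hl1, hl2⟩ := hl y ⟨y1, y4⟩
    apply y2
    rw [← y3, hz.comm y y1.mem]
    ext1 η
    exact WL.ker hl2 fun n => z1 n η
  rw [← z2 ξ hξ, z0]; rfl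

/-- Products of complements. -/
noncomputable def glue_r (g : ℕ → Bdd H) : ℕ → Bdd H
  | 0 => 1
  | n + 1 => glue_r g n * (1 - g n)

theorem glue_r_cp {g : ℕ → Bdd H} (hg : ∀ n, CP M (g n)) : ∀ n, CP M (glue_r g n)
  | 0 => glue_cp_one
  | n + 1 => glue_cp_mul (glue_r_cp hg n) (glue_cp_compl (hg n))

theorem glue_r_mul {g : ℕ → Bdd H} (hg : ∀ n, CP M (g n)) :
    ∀ j i, i < j → glue_r g j * g i = 0 := by
  intro j
  induction j with
  | zero => intro i hi; omega
  | succ j ih =>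
    intro i hi
    rw [glue_r, mul_assoc]
    rcases Nat.lt_succ_iff_lt_or_eq.1 hi with h | rfl
    · rw [(glue_cp_compl (hg j)).comm _ (hg i).mem, ← mul_assoc, ih i h, zero_mul]
    · rw [sub_mul, one_mul, (hg i).proj.isIdempotentElem.eq, sub_self, mul_zero]

theorem glue_orth {g : ℕ → Bdd H} (hg : ∀ n, CP M (g n)) (hk : ∀ ξ, (∀ n, g n ξ = 0) → ξ = 0) :
    ∃ y : ℕ → Bdd H, (∀ n, CP M (y n) ∧ g n * y n = y n) ∧ (∀ i j, i ≠ j → y i * y j = 0) ∧
      ∀ ξ, (∀ n, y n ξ = 0) → ξ = 0 := by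
  have hr := glue_r_cp hg
  have hy : ∀ n, CP M (g n * glue_r g n) := fun n => glue_cp_mul (hg n) (hr n)
  have lt : ∀ i j, i < j → g i * glue_r g i * (g j * glue_r g j) = 0 := by
    intro i j hij
    rw [mul_assoc, (hg i).comm _ (mul_mem (hr i).mem (hy j).mem), mul_assoc, mul_assoc,
      glue_r_mul hg j i hij, mul_zero, mul_zero]
  refine ⟨fun n => g n * glue_r g n, fun n => ⟨hy n, ?_⟩, fun i j hij => ?_, fun ξ hξ => ?_⟩
  · rw [← mul_assoc, (hg n).proj.isIdempotentElem.eq]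
  · rcases lt_or_gt_of_ne hij with h | h
    · exact lt i j h
    · rw [(hy i).comm _ (hy j).mem]; exact lt j i h
  · have h1 : ∀ n, glue_r g n ξ = ξ := by
      intro n
      induction n with
      | zero => rfl
      | succ n ih =>
        rw [glue_r, (hr n).comm _ (glue_cp_compl (hg n)).mem, sub_mul, one_mul,
          sub_apply, ih, hξ n, sub_zero]
    refine hk ξ fun n => ?_
    have := hξ n
    rwa [mul_apply_eq_comp, h1 n] at this

theorem glue_norm {c : Bdd H} (hc : CP M c) {a0 : Bdd H} (ha : a0 ∈ M) (hs : star a0 = a0) :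
    ∃ a ∈ M, star a = a ∧ c * a = a ∧ ‖a‖ ≤ 1 ∧
      ∀ t : Bdd H, t * a = a * t → t * c = c * t → t * c * a0 = a0 * (t * c) := by
  have hp : (0:ℝ) < ‖a0‖ + 1 := by positivity
  refine ⟨(((‖a0‖ + 1)⁻¹ : ℝ) : ℂ) • (a0 * c), glue_smul_mem _ (mul_mem ha hc.mem), ?_, ?_, ?_,
    fun t h1 h2 => ?_⟩
  · rw [star_smul, star_mul, hs, hc.proj.isSelfAdjoint.star_eq, hc.comm a0 ha, Complex.star_def,
      Complex.conj_ofReal]
  · rw [mul_smul_comm, ← mul_assoc, hc.comm a0 ha, mul_assoc, hc.proj.isIdempotentElem.eq]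
  · rw [norm_smul, Complex.norm_real, Real.norm_of_nonneg (by positivity), inv_mul_le_iff₀ hp]
    have h1 := norm_mul_le a0 c
    have h2 := hc.proj.norm_le _
    nlinarith [norm_nonneg a0]
  · rw [mul_smul_comm, smul_mul_assoc] at h1
    have h3 := smul_right_injective _ (Complex.ofReal_ne_zero.2 (inv_ne_zero hp.ne')) h1
    rw [mul_assoc, hc.comm a0 ha, h3, mul_assoc, h2]

theorem glue_good {g c : Bdd H} (hg : CP M g) (hG : Good M g) (hc : CP M c) (e : g * c = c) :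
    ∃ a b : Bdd H, (a ∈ M ∧ star a = a ∧ c * a = a ∧ ‖a‖ ≤ 1) ∧
      (b ∈ M ∧ star b = b ∧ c * b = b ∧ ‖b‖ ≤ 1) ∧
      ∀ t : Bdd H, t * a = a * t → t * b = b * t → t * c = c * t →
        ∀ m ∈ M, t * (m * c) = m * c * t := by
  obtain ⟨a0, ha0, b0, hb0, sa, sb, h⟩ := hG
  obtain ⟨a, a1, a2, a3, a4, a5⟩ := glue_norm hc ha0 sa
  obtain ⟨b, b1, b2, b3, b4, b5⟩ := glue_norm hc hb0 sb
  refine ⟨a, b, ⟨a1, a2, a3, a4⟩, ⟨b1, b2, b3, b4⟩, fun t h1 h2 h3 m hm => ?_⟩
  have e' : c * g = c := by rw [← hg.comm c hc.mem, e]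
  have h4 := h (t * c) (a5 t h1 h3) (b5 t h2 h3)
    (by rw [mul_assoc, e', h3, ← mul_assoc, e]) m hm
  rw [mul_assoc t, ← mul_assoc c, hc.comm m hm, mul_assoc m, e', h3, mul_assoc m, ← mul_assoc g, e,
    ← mul_assoc m] at h4
  exact h4

theorem glue_sum {y b : ℕ → Bdd H} (hb : ∀ n, b n ∈ M ∧ star (b n) = b n ∧ y n * b n = b n ∧
    ‖b n‖ ≤ 1) (ho : ∀ i j, i ≠ j → y i * y j = 0) :
    ∃ s ∈ M, star s = s ∧ ∀ n, y n * s = ((1 / 2 : ℂ) ^ n) • b n := by
  have hs : Summable fun n => ((1 / 2 : ℂ) ^ n) • b n := by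
    refine Summable.of_norm_bounded (summable_geometric_two) fun n => ?_
    rw [norm_smul, norm_pow]
    have : ‖(1 / 2 : ℂ)‖ = 1 / 2 := by simp
    rw [this]
    exact mul_le_of_le_one_right (by positivity) (hb n).2.2.2
  obtain ⟨s, hs⟩ := hs
  refine ⟨s, ?_, ?_, fun n => ?_⟩
  · exact (isClosed_vn M).mem_of_tendsto hs.tendsto_sum_nat (Eventually.of_forall fun n =>
      sum_mem (S := M) fun i _ => glue_smul_mem _ (hb i).1)
  · refine hs.star.unique ?_
    have : ∀ n, star (((1 / 2 : ℂ) ^ n) • b n) = ((1 / 2 : ℂ) ^ n) • b n := fun n => by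
      rw [star_smul, (hb n).2.1]; simp
    simp only [this]
    exact hs
  · refine (hs.mul_left (y n)).unique ?_
    have := hasSum_single (f := fun i => y n * (((1 / 2 : ℂ) ^ i) • b i)) n (fun i hi => by
      rw [mul_smul_comm, ← (hb i).2.2.1, ← mul_assoc, ho n i (Ne.symm hi), zero_mul, smul_zero])
    rwa [mul_smul_comm, (hb n).2.2.1] at this

end Con

theorem s_glue (hd : S_diag.{u}) : S_glue.{u} := by
  intro H _ _ _ M hs h
  obtain ⟨g, hg, hk⟩ := glue_seq hs h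
  obtain ⟨y, hy, ho, hk'⟩ := glue_orth (fun n => (hg n).1) hk
  choose a b ha hb hab using fun n => glue_good (hg n).1 (hg n).2 (hy n).1 (hy n).2
  obtain ⟨k, hkM, hks, hkc⟩ := hd H M y a
    (fun n => ⟨(hy n).1.mem, (ha n).1, (hy n).1.proj, (ha n).2.1, (ha n).2.2.1, (ha n).2.2.2⟩) ho
  obtain ⟨s, hsM, hss, hsy⟩ := glue_sum hb ho
  refine sg_iff.2 ⟨k + Complex.I • s, add_mem hkM (glue_smul_mem _ hsM), fun t h1 h2 m hm => ?_⟩
  rw [star_add, star_smul, hks, hss, Complex.star_def, Complex.conj_I] at h2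
  simp only [mul_add, add_mul, mul_smul_comm, smul_mul_assoc] at h1 h2
  have e1 : t * k = k * t := by
    have : (2 : ℂ) • (t * k) = (2 : ℂ) • (k * t) := by
      linear_combination (norm := module) h1 + h2
    exact smul_right_injective _ two_ne_zero this
  have e2 : t * s = s * t := by
    rw [e1, add_right_inj] at h1
    exact smul_right_injective _ Complex.I_ne_zero h1
  have e3 : ∀ n, t * b n = b n * t := fun n => by
    have : ((1 / 2 : ℂ) ^ n) • (t * b n) = ((1 / 2 : ℂ) ^ n) • (b n * t) := by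
      rw [← mul_smul_comm, ← smul_mul_assoc, ← hsy, ← mul_assoc, (hkc t e1 n).1, mul_assoc, e2,
        mul_assoc]
    exact smul_right_injective _ (pow_ne_zero _ (by norm_num)) this
  have e4 : ∀ n, y n * star (t * m - m * t) = 0 := fun n => by
    have h3 := hab n t (hkc t e1 n).2 (e3 n) (hkc t e1 n).1 m hm
    have h4 : (t * m - m * t) * y n = 0 := by
      rw [sub_mul, mul_assoc, h3, mul_assoc, mul_assoc, (hkc t e1 n).1, sub_self]
    have h5 := congrArg star h4
    rwa [star_mul, (hy n).1.proj.isSelfAdjoint.star_eq, star_zero] at h5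
  have e5 : star (t * m - m * t) = 0 := by
    ext1 η
    refine hk' _ fun n => ?_
    rw [← mul_apply_eq_comp, e4 n]; rfl
  exact sub_eq_zero.1 (star_eq_zero.1 e5)

end Vale.Agent.P085.G
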