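import Vale.Agent.P085b.Stm

/-! Properly infinite summands are generated by two self-adjoint elements. -/

namespace Vale.Agent.P085.G

open Filter Topology
open scoped InnerProductSpace ComplexOrder

universe u

section

variable {H : Type u} [NormedAddCommGroup H] [InnerProductSpace ℂ H] [CompleteSpace H]

/-- The projection onto the orthogonal complement of the ranges. -/
theorem inf_proj (v : ℕ → Bdd H) : ∃ Q : Bdd H, IsStarProjection Q ∧ (∀ j, Q * v j = 0) ∧
    ∀ s : Bdd H, (∀ j, s * v j = 0) → s * Q = s := by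
  let L : Submodule ℂ H := ⨅ j, LinearMap.ker (star (v j) : Bdd H).toLinearMap
  have hL : ∀ ξ, ξ ∈ L ↔ ∀ j, (star (v j) : Bdd H) ξ = 0 := fun ξ => by
    simp [L, Submodule.mem_iInf]
  have hc : IsClosed (L : Set H) := by
    have e : (L : Set H) = ⋂ j, {ξ | (star (v j) : Bdd H) ξ = 0} := by
      ext ξ
      simpa using hL ξ
    rw [e]
    exact isClosed_iInter fun j => isClosed_eq (star (v j) : Bdd H).continuous continuous_const
  have := hc.completeSpace_coe
  have hp : IsStarProjection L.starProjection := isStarProjection_starProjection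
  refine ⟨L.starProjection, hp, fun j => ?_, fun s hs => ?_⟩
  · have h1 : star (v j) * L.starProjection = 0 := by
      ext1 ξ
      exact (hL _).1 (L.starProjection_apply_mem ξ) j
    have h2 := congrArg star h1
    rwa [star_mul, star_star, hp.isSelfAdjoint.star_eq, star_zero] at h2
  · have h1 : L.starProjection * star s = star s := by
      ext1 ξ
      refine Submodule.starProjection_eq_self_iff.2 ((hL _).2 fun j => ?_)
      have h2 := congrArg star (hs j)
      rw [star_mul, star_zero] at h2
      exact congrArg (fun T : Bdd H => T ξ) h2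
    have h2 := congrArg star h1
    rwa [star_mul, star_star, hp.isSelfAdjoint.star_eq] at h2

theorem inf_comm {v : ℕ → Bdd H} {Q t : Bdd H} (hQ : IsStarProjection Q)
    (h : ∀ s : Bdd H, (∀ j, s * v j = 0) → s * Q = s) (h1 : ∀ j, Q * t * v j = 0)
    (h2 : ∀ j, Q * star t * v j = 0) : t * Q = Q * t := by
  have k := congrArg star (h _ h2)
  simp only [star_mul, star_star, hQ.isSelfAdjoint.star_eq] at k
  rw [← k, ← mul_assoc, h _ h1]

theorem inf_all {M : VonNeumannAlgebra H} {t : Bdd H}
    (h : ∀ x ∈ M, star x = x → ‖x‖ ≤ 1 → t * x = x * t) : ∀ m ∈ M, t * m = m * t := by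
  have k : ∀ x ∈ M, star x = x → t * x = x * t := fun x hx hs => by
    have h0 : 0 < ‖x‖ + 1 := by positivity
    have h1 := h ((((‖x‖ + 1)⁻¹ : ℝ) : ℂ) • x) (M.toStarSubalgebra.smul_mem hx _)
      (by rw [star_smul, hs, Complex.star_def, Complex.conj_ofReal])
      (by
        rw [norm_smul, Complex.norm_real, Real.norm_of_nonneg (inv_nonneg.2 h0.le),
          inv_mul_le_iff₀ h0]
        linarith)
    rw [mul_smul_comm, smul_mul_assoc] at h1
    exact smul_right_injective _ (by exact_mod_cast (inv_pos.2 h0).ne') h1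
  intro m hm
  have h1 := k (m + star m) (add_mem hm (star_mem hm)) (by rw [star_add, star_star, add_comm])
  have h2 := k (Complex.I • (m - star m)) (M.toStarSubalgebra.smul_mem (sub_mem hm (star_mem hm)) _)
    (by rw [star_smul, star_sub, star_star, Complex.star_def, Complex.conj_I, neg_smul, ← smul_neg,
      neg_sub])
  rw [mul_smul_comm, smul_mul_assoc] at h2
  have h3 := smul_right_injective _ Complex.I_ne_zero h2
  have h4 : (2 : ℂ) • (t * m) = (2 : ℂ) • (m * t) := by
    have e1 : (2 : ℂ) • (t * m) = t * (m + star m) + t * (m - star m) := by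
      rw [mul_add, mul_sub, two_smul]
      abel
    have e2 : (2 : ℂ) • (m * t) = (m + star m) * t + (m - star m) * t := by
      rw [add_mul, sub_mul, two_smul]
      abel
    rw [e1, e2, h1, h3]
  exact smul_right_injective _ two_ne_zero h4

/-- The weighted shift. -/
theorem inf_shift {M : VonNeumannAlgebra H} {y Q : Bdd H} {v : ℕ → Bdd H} (hv : ∀ i, v i ∈ M)
    (ho : ∀ i j, star (v i) * v j = if i = j then y else 0) (hy : ∀ i, v i * y = v i)
    (hn : ∀ i, ‖v i‖ ≤ 1) (hQ : ∀ j, Q * v j = 0) (hQ' : ∀ j, star (v j) * Q = 0) :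
    ∃ σ ∈ M, σ * Q = 0 ∧ Q * σ = 0 ∧ ∀ i, σ * v i = (1 / 2 : ℂ) ^ i • v (i + 1) := by
  have hs : Summable fun k => (1 / 2 : ℂ) ^ k • (v (k + 1) * star (v k)) := by
    refine Summable.of_norm_bounded summable_geometric_two fun k => ?_
    rw [norm_smul, norm_pow, norm_div, norm_one, Complex.norm_ofNat]
    refine mul_le_of_le_one_right (by positivity) ((norm_mul_le _ _).trans ?_)
    rw [norm_star]
    exact mul_le_one₀ (hn _) (norm_nonneg _) (hn _)
  refine ⟨_, tsum_mem (s := M.toStarSubalgebra) (isClosed_vn M) fun k =>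
    SMulMemClass.smul_mem ((1 / 2 : ℂ) ^ k) (mul_mem (hv (k + 1)) (star_mem (hv k))), ?_, ?_,
    fun i => ?_⟩
  · refine (hs.hasSum.mul_right Q).unique ?_
    simp only [smul_mul_assoc, mul_assoc, hQ', mul_zero, smul_zero, hasSum_zero]
  · refine (hs.hasSum.mul_left Q).unique ?_
    simp only [mul_smul_comm, ← mul_assoc, hQ, zero_mul, smul_zero, hasSum_zero]
  · refine (hs.hasSum.mul_right (v i)).unique ?_
    have e : (1 / 2 : ℂ) ^ i • v (i + 1) = (1 / 2 : ℂ) ^ i • (v (i + 1) * star (v i)) * v i := by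
      rw [smul_mul_assoc, mul_assoc, ho, if_pos rfl, hy]
    rw [e]
    refine hasSum_single i fun k hk => ?_
    rw [smul_mul_assoc, mul_assoc, ho, if_neg hk, mul_zero, smul_zero]

end

theorem s_inf (hd : S_diag.{u}) : S_inf.{u} := by
  intro H _ _ _ M y hS hC ⟨v, hv, ho⟩
  have ys : star y = y := hC.proj.isSelfAdjoint.star_eq
  have yy : y * y = y := hC.proj.isIdempotentElem.eq
  have o1 : ∀ i, star (v i) * v i = y := fun i => by rw [ho, if_pos rfl]
  have o1' : ∀ i w, star (v i) * (v i * w) = y * w := fun i w => by rw [← mul_assoc, o1]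
  have vy : ∀ i, v i * y = v i := fun i => by
    rw [← sub_eq_zero, ← CStarRing.star_mul_self_eq_zero_iff]
    simp only [star_sub, star_mul, ys, sub_mul, mul_sub, mul_assoc, o1, o1', yy, sub_self]
  have vy' : ∀ i w, v i * (y * w) = v i * w := fun i w => by rw [← mul_assoc, vy]
  have yv : ∀ i, y * v i = v i := fun i => by rw [hC.comm _ (hv i), vy]
  have yv' : ∀ i, y * star (v i) = star (v i) := fun i => by
    rw [← ys, ← star_mul, vy]
  have vn : ∀ i, ‖v i‖ ≤ 1 := fun i => by
    have h1 := CStarRing.norm_star_mul_self (x := v i)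
    rw [o1] at h1
    have h2 := hC.proj.norm_le
    nlinarith [norm_nonneg (v i)]
  obtain ⟨g, hg, hgl⟩ := hS {x | x ∈ M ∧ star x = x ∧ ‖x‖ ≤ 1} ⟨0, zero_mem _, by simp, by simp⟩
    fun p hp => ⟨hp.1, hp.2.2⟩
  obtain ⟨h, hM, hs, hh⟩ := hd H M (fun i => v i * star (v i)) (fun i => v i * g i * star (v i))
    (fun i => ⟨mul_mem (hv i) (star_mem (hv i)),
      mul_mem (mul_mem (hv i) (hg i).1) (star_mem (hv i)),
      ⟨by simp only [IsIdempotentElem, mul_assoc, o1', yv'], by simp [IsSelfAdjoint]⟩,
      by simp only [star_mul, star_star, (hg i).2.1, mul_assoc],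
      by simp only [mul_assoc, o1', vy'],
      (norm_mul_le _ _).trans (mul_le_one₀ ((norm_mul_le _ _).trans
        (mul_le_one₀ (vn i) (norm_nonneg _) (hg i).2.2)) (norm_nonneg _)
        (by rw [norm_star]; exact vn i))⟩)
    (fun i j hij => by
      rw [mul_assoc, ← mul_assoc (star (v i)), ho, if_neg hij, zero_mul, mul_zero])
  obtain ⟨Q, hQ, Qv, Qs⟩ := inf_proj v
  have Qs' : star Q = Q := hQ.isSelfAdjoint.star_eq
  have QQ : Q * Q = Q := hQ.isIdempotentElem.eq
  have vQ : ∀ j, star (v j) * Q = 0 := fun j => by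
    rw [← Qs', ← star_mul, Qv, star_zero]
  have QM : Q ∈ M := mem_of_comm fun t ht => inf_comm hQ Qs
    (fun j => by rw [mul_assoc, ← ht _ (hv j), ← mul_assoc, Qv, zero_mul])
    (fun j => by
      have k := congrArg star (ht _ (star_mem (hv j)))
      rw [star_mul, star_mul, star_star] at k
      rw [mul_assoc, k, ← mul_assoc, Qv, zero_mul])
  obtain ⟨σ, σM, σQ, Qσ, σv⟩ := inf_shift hv ho vy vn Qv vQ
  have wM : σ + v 0 * Q ∈ M := add_mem σM (mul_mem (hv 0) QM)
  have wv : ∀ i, (σ + v 0 * Q) * v i = (1 / 2 : ℂ) ^ i • v (i + 1) := fun i => by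
    rw [add_mul, σv, mul_assoc, Qv, mul_zero, add_zero]
  have wQ : (σ + v 0 * Q) * Q = v 0 * Q := by rw [add_mul, σQ, mul_assoc, QQ, zero_add]
  have Qw : Q * (σ + v 0 * Q) = 0 := by rw [mul_add, Qσ, ← mul_assoc, Qv, zero_mul, add_zero]
  generalize σ + v 0 * Q = w at wM wv wQ Qw
  have bQ : (w + star w) * Q = v 0 * Q := by
    have k := congrArg star Qw
    rw [star_mul, Qs', star_zero] at k
    rw [add_mul, wQ, k, add_zero]
  have bv : ∀ i, star (v (i + 1)) * ((w + star w) * v i) = (1 / 2 : ℂ) ^ i • y := fun i => by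
    have k : star (v i) * (w * v (i + 1)) = 0 := by
      rw [wv, mul_smul_comm, ho, if_neg (by omega), smul_zero]
    have k' := congrArg star k
    rw [star_mul, star_mul, star_star, star_zero, mul_assoc] at k'
    rw [add_mul, mul_add, k', wv, mul_smul_comm, o1, add_zero]
  refine ⟨h, hM, w + star w, add_mem wM (star_mem wM), hs, by rw [star_add, star_star, add_comm],
    fun t th tb ty => ?_⟩
  generalize w + star w = b at bQ bv tb
  have te : ∀ i, t * (v i * star (v i)) = v i * star (v i) * t := fun i => (hh t th i).1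
  have ev : ∀ (s : Bdd H) i, s * (v i * star (v i)) = v i * star (v i) * s →
      s * v i = v i * (star (v i) * (s * v i)) := fun s i k => by
    rw [← mul_assoc, ← mul_assoc, ← k, mul_assoc, mul_assoc, o1, vy]
  have th' : star t * h = h * star t := by
    have k := congrArg star th
    rw [star_mul, star_mul, hs] at k
    exact k.symm
  have tQ : t * Q = Q * t := inf_comm hQ Qs
    (fun j => by rw [mul_assoc, ev t j (te j), ← mul_assoc, Qv, zero_mul])
    (fun j => by rw [mul_assoc, ev _ j (hh _ th' j).1, ← mul_assoc, Qv, zero_mul])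
  have ts : ∀ i, t * (v (i + 1) * star (v i)) = v (i + 1) * star (v i) * t := fun i => by
    have e : v (i + 1) * star (v (i + 1)) * b * (v i * star (v i)) =
        (1 / 2 : ℂ) ^ i • (v (i + 1) * star (v i)) := by
      rw [mul_assoc, mul_assoc, ← mul_assoc b, ← mul_assoc (star (v (i + 1))), bv, smul_mul_assoc,
        yv', mul_smul_comm]
    have k : Commute t (v (i + 1) * star (v (i + 1)) * b * (v i * star (v i))) :=
      (Commute.mul_right (Commute.mul_right (te (i + 1)) tb) (te i))
    rw [e] at k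
    have k' := k.eq
    rw [mul_smul_comm, smul_mul_assoc] at k'
    exact smul_right_injective _ (pow_ne_zero _ (by norm_num)) k'
  have tt : ∀ i, star (v i) * (t * v i) = star (v 0) * (t * v 0) := fun i => by
    induction i with
    | zero => rfl
    | succ i ih =>
      have e : t * v (i + 1) = t * (v (i + 1) * star (v i)) * v i := by
        rw [mul_assoc, mul_assoc, o1, vy]
      rw [e, ts, ← ih]
      simp only [mul_assoc, o1']
      rw [← mul_assoc, yv']
  have t0Q : star (v 0) * (t * v 0) * Q = y * t * Q := by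
    rw [mul_assoc, mul_assoc, ← bQ, ← mul_assoc t, tb, mul_assoc, tQ, ← mul_assoc b, bQ, mul_assoc,
      o1', mul_assoc, tQ]
  have yt' : y * (star (v 0) * (t * v 0)) = star (v 0) * (t * v 0) := by rw [← mul_assoc, yv']
  have t'y : star (v 0) * (t * v 0) * y = star (v 0) * (t * v 0) := by
    rw [mul_assoc, mul_assoc, vy]
  have tv : ∀ i, t * v i = v i * (star (v 0) * (t * v 0)) := fun i => by
    rw [← tt i]
    exact ev t i (te i)
  have tg : ∀ i, star (v 0) * (t * v 0) * g i = g i * (star (v 0) * (t * v 0)) := fun i => by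
    have k := congrArg (fun x => star (v i) * x * v i) (hh t th i).2
    simp only [mul_assoc, o1, o1'] at k
    rw [← hC.comm _ (hg i).1, vy', ← mul_assoc t, ← mul_assoc (star (v i)), tt i, ← mul_assoc y,
      hC.comm _ (hg i).1, mul_assoc (g i), yt'] at k
    exact k
  generalize star (v 0) * (t * v 0) = t' at t0Q yt' t'y tv tg
  have tM : ∀ m ∈ M, t' * m = m * t' := inf_all fun x hx h1 h2 => by
    obtain ⟨l, hl, hw⟩ := hgl x ⟨hx, h1, h2⟩
    exact WL.comm hw tg
  have k1 : (y * t - t') * Q = y * t - t' := Qs _ fun j => by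
    rw [sub_mul, mul_assoc, tv, ← mul_assoc, yv, tM _ (hv j), sub_self]
  rw [sub_mul, t0Q, sub_self, eq_comm, sub_eq_zero] at k1
  intro m hm
  rw [mul_assoc, k1, ← tM m hm, ← hC.comm m hm, ← mul_assoc, ty, k1]

end Vale.Agent.P085.G
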