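import Vale.Agent.P085b.Stm

/-! Finite discrete summands are generated by two self-adjoint elements. -/

namespace Vale.Agent.P085.G

universe u

theorem one_ext {R : Type u} [Ring R] [StarRing R] {p : R} {w : ℕ → R} {k i : ℕ} (hi : i < k)
    (hp : star p = p) (h1 : ∀ i, w i * p = w i) (h2 : ∀ i, p * w i = 0)
    (h3 : w i * (star (w i) * w i) = w i) (h4 : ∀ i j, i ≠ j → star (w i) * w j = 0) :
    w i * star (w i) * (∑ j ∈ Finset.range k, (w j + star (w j))) * p = w i := by
  have h5 : ∀ j, star (w j) * p = 0 := fun j => by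
    rw [← hp, ← star_mul, h2, star_zero]
  rw [mul_assoc, Finset.sum_mul]
  simp only [add_mul, h1, h5, add_zero]
  rw [Finset.mul_sum, Finset.sum_eq_single_of_mem i (Finset.mem_range.2 hi), mul_assoc, h3]
  intro j _ hj
  rw [mul_assoc, h4 i j hj.symm, mul_zero]

theorem s_one (ha : S_ab.{u}) (hd : S_diag.{u}) : S_one.{u} := by
  rintro H _ _ _ M y hs hy ⟨p, k, w, hp, -, hw, hww, hsum⟩
  obtain ⟨h, hM, hh, hph, hn, hc⟩ := ha H M p hs hp
  have p1 : star p = p := hp.proj.isSelfAdjoint
  have p2 : p * p = p := hp.proj.isIdempotentElem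
  let v : ℕ → Bdd H := fun n => Nat.casesOn n p w
  have v1 : ∀ n, v n ∈ M ∧ v n * p = v n ∧ v n * (star (v n) * v n) = v n := by
    rintro (_ | n)
    · exact ⟨hp.mem, p2, by simp only [v, Nat.rec_zero, p1, p2]⟩
    · exact ⟨(hw n).1, (hw n).2.1, (hw n).2.2.2⟩
  have v2 : ∀ i j, i ≠ j → star (v i) * v j = 0 := by
    rintro (_ | i) (_ | j) hij
    · exact absurd rfl hij
    · exact (congrArg (· * w j) p1).trans (hw j).2.2.1
    · change star (w i) * p = 0
      rw [← p1, ← star_mul, (hw i).2.2.1, star_zero]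
    · exact hww i j fun e => hij (by rw [e])
  have v0 : v 0 * star (v 0) = p := (congrArg (p * ·) p1).trans p2
  have hy' : y = ∑ i ∈ Finset.range (k + 1), v i * star (v i) := by
    rw [Finset.sum_range_succ', v0]
    exact (sub_add_cancel y p).symm.trans (congrArg (· + p) hsum.symm)
  obtain ⟨a, aM, a1, a2⟩ := hd H M (fun n => v n * star (v n))
    (fun n => Nat.casesOn n h fun _ => 0) (fun n => by
      have e1 : v n * star (v n) ∈ M := mul_mem (v1 n).1 (star_mem (v1 n).1)
      have e2 : IsStarProjection (v n * star (v n)) :=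
        ⟨by rw [IsIdempotentElem, mul_assoc, ← mul_assoc (star _), ← mul_assoc, (v1 n).2.2],
          by rw [IsSelfAdjoint, star_mul, star_star]⟩
      rcases n with _ | n
      · exact ⟨e1, hM, e2, hh, (congrArg (· * h) v0).trans hph, hn⟩
      · exact ⟨e1, zero_mem _, e2, star_zero _, mul_zero _, norm_zero.trans_le zero_le_one⟩)
    (fun i j hij => by rw [mul_assoc, ← mul_assoc (star _), v2 i j hij, zero_mul, mul_zero])
  have b1 : star (∑ j ∈ Finset.range k, (w j + star (w j))) =
      ∑ j ∈ Finset.range k, (w j + star (w j)) := by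
    simp only [star_sum, star_add, star_star, add_comm]
  refine ⟨a, aM, ∑ j ∈ Finset.range k, (w j + star (w j)),
    sum_mem fun j _ => add_mem (hw j).1 (star_mem (hw j).1), a1, b1, fun t ta tb _ m hm => ?_⟩
  have tb' : Commute t (∑ j ∈ Finset.range k, (w j + star (w j))) := tb
  have te : ∀ n, Commute t (v n * star (v n)) := fun n => (a2 t ta n).1
  have tp : Commute t p := v0 ▸ te 0
  have tv : ∀ n < k + 1, Commute t (v n) ∧ Commute t (star (v n)) := by
    rintro (_ | n) hn
    · exact ⟨tp, p1.symm ▸ tp⟩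
    · have e := one_ext (Nat.lt_of_succ_lt_succ hn) p1 (fun i => (hw i).2.1)
        (fun i => (hw i).2.2.1) (hw n).2.2.2 hww
      have e' := congrArg star e
      rw [star_mul, star_mul, star_mul, star_star, p1, b1] at e'
      have c1 := ((te (n + 1)).mul_right tb').mul_right tp
      have c2 := tp.mul_right (tb'.mul_right (te (n + 1)))
      exact ⟨(congrArg (Commute t) e).mp c1, (congrArg (Commute t) e').mp c2⟩
  have hmy : m * y = y * m * y := by
    rw [hy.comm m hm, mul_assoc, hy.proj.isIdempotentElem.eq]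
  change Commute t (m * y)
  rw [hmy, hy', Finset.sum_mul, Finset.sum_mul]
  refine Commute.sum_right _ _ _ fun i hi => ?_
  rw [Finset.mul_sum]
  refine Commute.sum_right _ _ _ fun j hj => ?_
  have e3 : p * star (v j) = star (v j) := by rw [← p1, ← star_mul, (v1 j).2.1]
  have e4 : v i * star (v i) * m * (v j * star (v j)) =
      v i * (p * (star (v i) * m * v j) * p) * star (v j) := by
    simp only [mul_assoc, e3]
    rw [← mul_assoc (v i) p, (v1 i).2.1]
  have e5 : Commute t (p * (star (v i) * m * v j) * p) :=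
    hc t (a2 t ta 0).2 tp _ (mul_mem (mul_mem (star_mem (v1 i).1) hm) (v1 j).1)
  rw [e4]
  exact ((tv i (Finset.mem_range.1 hi)).1.mul_right e5).mul_right (tv j (Finset.mem_range.1 hj)).2

end Vale.Agent.P085.G
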