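import Vale.Agent.P085b.Stm
import Vale.Agent.P082.Pieces

/-! Every nonzero central projection dominates a summand of one of three simple types. -/

set_option linter.unusedSectionVars false

namespace Vale.Agent.P085.G

open scoped InnerProductSpace ComplexOrder

universe u

theorem piece_orth {A : Type u} [CStarAlgebra A] {J : Type} [Fintype J] (u : J → A)
    (hu : ∀ i, P104.PI (u i)) (hQ : ∀ j, (∑ i, u i * star (u i)) * u j = u j) {i j : J}
    (hij : i ≠ j) : star (u i) * u j = 0 := by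
  classical
  let _ := CStarAlgebra.spectralOrder A
  have _ := CStarAlgebra.spectralOrderedRing A
  have h1 : ∑ i, star (star (u i) * u j) * (star (u i) * u j) = star (u j) * u j := by
    calc _ = star (u j) * ((∑ i, u i * star (u i)) * u j) := by
          simp only [Finset.mul_sum, Finset.sum_mul, star_mul, star_star, mul_assoc]
      _ = _ := by rw [hQ]
  rw [← Finset.add_sum_erase _ _ (Finset.mem_univ j), star_mul, star_star, mul_assoc, hu j,
    add_eq_left, Finset.sum_eq_zero_iff_of_nonneg fun _ _ => star_mul_self_nonneg _] at h1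
  exact (CStarRing.star_mul_self_eq_zero_iff _).1
    (h1 i (Finset.mem_erase.2 ⟨hij, Finset.mem_univ _⟩))

theorem piece_abs {G : Type u} [NormedAddCommGroup G] [InnerProductSpace ℂ G] [CompleteSpace G]
    {A : Type u} [CStarAlgebra A] {ρ : A →⋆ₐ[ℂ] (G →L[ℂ] G)} (h : P082.IsVN ρ) {z : A}
    (hz : P104.IsCP z) (z0 : z ≠ 0) : ∃ y, P104.IsCP y ∧ y ≠ 0 ∧ z * y = y ∧
      ((∃ v : ℕ → A, ∀ i j, star (v i) * v j = if i = j then y else 0) ∨
      (∃ (p : A) (k : ℕ) (w : ℕ → A), IsStarProjection p ∧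
        (∀ a b, p * a * p * (p * b * p) = p * b * p * (p * a * p)) ∧ y * p = p ∧
        (∀ i, w i * p = w i ∧ p * w i = 0 ∧ w i * (star (w i) * w i) = w i) ∧
        (∀ i j, i ≠ j → star (w i) * w j = 0) ∧
        ∑ i ∈ Finset.range k, w i * star (w i) = y - p) ∨
      ((∃ t : A →ₗ[ℂ] ℂ, P104.IsTr t ∧ P082.Normal ρ t ∧ t y = 1 ∧
        ∀ a, t (star a * a) = 0 → y * a = 0) ∧ ∀ r, IsStarProjection r → y * r = r → r ≠ 0 →
          ∃ m, m ≠ 0 ∧ m * m = 0 ∧ r * m = m ∧ m * r = m)) := by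
  classical
  by_cases hf : P104.InfSeq z
  · obtain ⟨y, h1, h2, h3, h4⟩ := P082.pc_infinite h.isWRep hz hf
    exact ⟨y, h1, h2, h3, Or.inl h4⟩
  obtain ⟨y, t, hy, y0, zy, ht, hn, ty, hN⟩ := h.exists_normal_trace hz z0 hf
  by_cases H : ∀ p, IsStarProjection p → y * p = p →
      (∀ a b, p * a * p * (p * b * p) = p * b * p * (p * a * p)) → p = 0
  · refine ⟨y, hy, y0, zy, Or.inr (Or.inr ⟨⟨t, ht, hn, ty, hN⟩, fun r hr yr r0 => ?_⟩)⟩
    obtain ⟨m, m1, m2, m3, m4⟩ := P082.pc_halves h.isWRep hr fun p hp rp =>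
      H p hp (by rw [← rp, ← mul_assoc, yr])
    refine ⟨m, fun h0 => r0 ?_, m3, m1, m2⟩
    rw [← m4, h0]
    simp
  push Not at H
  obtain ⟨p, hp, yp, hab, p0⟩ := H
  have py : p * y = p := by rw [← hy.comm, yp]
  have pp := hp.isIdempotentElem.eq
  have hq := hp.sub_of_mul_eq_left hy.proj py
  obtain ⟨y', J, _, u, hy', b1, b2, b3⟩ :=
    P104.ws_cover h.isWRep.comparison hq hp p0 fun hi => hf (hi.mono (by
      rw [mul_sub, zy, ← yp, ← mul_assoc, zy]))
  have hQ : ∀ j, (∑ i, u i * star (u i)) * u j = u j := fun j => by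
    rw [b3, mul_assoc, (b2 j).2.2.2, (b2 j).2.2.1]
  have pu : ∀ j, p * u j = 0 := fun j => by
    rw [← (b2 j).2.2.2, ← mul_assoc, mul_sub, py, pp, sub_self, zero_mul]
  have c1 : ∀ a, y' * p * a * (y' * p) = y' * (p * a * p) := fun a => by
    rw [mul_assoc y', mul_assoc y', ← mul_assoc (p * a), ← hy'.comm, mul_assoc y', hy'.idem]
  have c2 : ∀ a b, y' * a * (y' * b) = y' * (a * b) := fun a b => by
    rw [mul_assoc y', ← mul_assoc a, ← hy'.comm, mul_assoc y', hy'.idem]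
  let e := (Fintype.equivFin J).symm
  let w : ℕ → A := fun i => if hi : i < Fintype.card J then u (e ⟨i, hi⟩) else 0
  refine ⟨y' * y, ⟨hy'.mul_proj hy.proj, fun a => by
    rw [mul_assoc, hy.comm, ← mul_assoc, hy'.comm, mul_assoc]⟩, fun h0 => b1 ?_, ?_,
    Or.inr (Or.inl ⟨y' * p, Fintype.card J, w, hy'.mul_proj hp, fun a b => ?_, ?_, fun i => ?_,
      fun i j hij => ?_, ?_⟩)⟩
  · rw [← yp, ← mul_assoc, h0, zero_mul]
  · rw [← mul_assoc, ← hy'.comm, mul_assoc, zy]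
  · rw [c1, c1, c2, c2, hab]
  · rw [c2, yp]
  · simp only [w]
    split_ifs with hi
    · refine ⟨?_, ?_, (b2 _).1⟩
      · rw [← mul_assoc, ← hy'.comm, (b2 _).2.2.1, (b2 _).2.1]
      · rw [mul_assoc, pu, mul_zero]
    · simp
  · simp only [w]
    split_ifs with hi hj
    · exact piece_orth u (fun i => (b2 i).1) hQ fun h0 =>
        hij (congrArg Fin.val (e.injective h0))
    all_goals simp
  · rw [← mul_sub, ← b3, Finset.sum_range, ← Equiv.sum_comp e]
    refine Finset.sum_congr rfl fun i _ => ?_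
    simp only [w, i.2, dif_pos]

theorem piece_proj {H : Type u} [NormedAddCommGroup H] [InnerProductSpace ℂ H] [CompleteSpace H]
    {M : VonNeumannAlgebra H} {p : M.toStarSubalgebra} :
    IsStarProjection p ↔ IsStarProjection (p : Bdd H) := by
  rw [isStarProjection_iff', isStarProjection_iff']
  exact ⟨fun k => ⟨congrArg Subtype.val k.1, congrArg Subtype.val k.2⟩,
    fun k => ⟨Subtype.ext k.1, Subtype.ext k.2⟩⟩

theorem s_piece : S_piece.{u} := by
  intro H _ _ _ M z hz z0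
  have := isClosed_vn M
  obtain ⟨y, hy, y0, zy, hD⟩ := piece_abs (P082.isVN_subtype M) (z := ⟨z, hz.mem⟩)
    ⟨piece_proj.2 hz.proj, fun a => Subtype.ext (hz.comm a a.2)⟩
    fun h0 => z0 (congrArg Subtype.val h0)
  refine ⟨y, ⟨y.2, piece_proj.1 hy.proj, fun m hm => congrArg Subtype.val (hy.comm ⟨m, hm⟩)⟩,
    fun h0 => y0 (Subtype.ext h0), congrArg Subtype.val zy, ?_⟩
  rcases hD with ⟨v, hv⟩ | ⟨p, k, w, hp, hab, yp, w1, w2, w3⟩ |
    ⟨⟨t, ht, ⟨J, _, ζ, ζ', hn⟩, ty, hN⟩, hr⟩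
  · refine Or.inl ⟨fun i => v i, fun i => (v i).2, fun i j => ?_⟩
    have := congrArg Subtype.val (hv i j)
    split_ifs at this ⊢
    · exact this
    · exact this
  · refine Or.inr (Or.inl ⟨p, k, fun i => w i, ⟨p.2, piece_proj.1 hp, fun a ha b hb =>
      congrArg Subtype.val (hab ⟨a, ha⟩ ⟨b, hb⟩)⟩, congrArg Subtype.val yp, fun i =>
      ⟨(w i).2, congrArg Subtype.val (w1 i).1, congrArg Subtype.val (w1 i).2.1,
        congrArg Subtype.val (w1 i).2.2⟩, fun i j hij => congrArg Subtype.val (w2 i j hij), ?_⟩)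
    have := congrArg M.toStarSubalgebra.subtype w3
    rw [map_sum] at this
    exact this
  · have hv : ∀ a : M.toStarSubalgebra, vt ζ ζ' (a : Bdd H) = t a := fun a => (hn a).symm
    have h1 : ∀ a b : M.toStarSubalgebra, vt ζ ζ' ((a : Bdd H) * b) = t (a * b) := fun a b =>
      hv (a * b)
    have h2 : ∀ a : M.toStarSubalgebra, vt ζ ζ' (star (a : Bdd H) * a) = t (star a * a) :=
      fun a => hv (star a * a)
    refine Or.inr (Or.inr ⟨⟨J, inferInstance, ζ, ζ', (hv y).trans ty, fun x hx => ?_,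
      fun x hx w hw => ?_, fun x hx h0 => ?_⟩, fun r hm r1 r2 yr r0 => ?_⟩)
    · exact (ht.nonneg ⟨x, hx⟩).trans_eq (h2 ⟨x, hx⟩).symm
    · exact (h1 ⟨x, hx⟩ ⟨w, hw⟩).trans ((ht.comm _ _).trans (h1 ⟨w, hw⟩ ⟨x, hx⟩).symm)
    · exact congrArg Subtype.val (hN ⟨x, hx⟩ ((h2 ⟨x, hx⟩).symm.trans h0))
    · obtain ⟨m, m0, m1, m2, m3⟩ := hr ⟨r, hm⟩ (piece_proj.2 (isStarProjection_iff'.2 ⟨r2, r1⟩))
        (Subtype.ext yr) fun h0 => r0 (congrArg Subtype.val h0)
      exact ⟨m, m.2, fun h0 => m0 (Subtype.ext h0), congrArg Subtype.val m1,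
        congrArg Subtype.val m2, congrArg Subtype.val m3⟩

end Vale.Agent.P085.G
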