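import Vale.Agent.P085b.Stm

/-! Weak separability of the unit ball. -/

namespace Vale.Agent.P085.G

open Filter Topology
open scoped InnerProductSpace ComplexOrder

universe u

variable {H : Type u} [NormedAddCommGroup H] [InnerProductSpace ℂ H] [CompleteSpace H]

/-- The inclusion of the algebra. -/
def sp_inc (M : VonNeumannAlgebra H) : M.toStarSubalgebra →L[ℂ] Bdd H where
  toFun := Subtype.val
  map_add' _ _ := rfl
  map_smul' _ _ := rfl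
  cont := continuous_subtype_val

/-- A vector functional. -/
noncomputable def sp_phi (M : VonNeumannAlgebra H) (q : H × H) : M.toStarSubalgebra →L[ℂ] ℂ :=
  (innerSL ℂ q.2).comp ((ContinuousLinearMap.apply ℂ H q.1).comp (sp_inc M))

theorem sp_range (M : VonNeumannAlgebra H) : vecF M = Set.range (sp_phi M) :=
  Set.ext fun _ => ⟨fun ⟨ξ, η, h⟩ => ⟨(ξ, η), ContinuousLinearMap.ext fun x => (h x).symm⟩,
    fun ⟨q, h⟩ => ⟨q.1, q.2, fun _ => h ▸ rfl⟩⟩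

theorem sp_cont (M : VonNeumannAlgebra H) : Continuous (sp_phi M) :=
  ((innerSL ℂ).continuous.comp continuous_snd).clm_comp
    (((ContinuousLinearMap.apply ℂ H).continuous.comp continuous_fst).clm_comp continuous_const)

theorem sp_one (M : VonNeumannAlgebra H) (h : TopologicalSpace.IsSeparable (vecF M)) : Sp M := by
  obtain ⟨c, hc, hs⟩ := h
  intro P ⟨p0, hp0⟩ hP
  have := hc.to_subtype
  let Φ : P → c → ℂ := fun p ω => ω.1 ⟨p.1, (hP p p.2).1⟩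
  have : Nonempty (Set.range Φ) := ⟨⟨_, ⟨p0, hp0⟩, rfl⟩⟩
  obtain ⟨v, hv⟩ := TopologicalSpace.exists_dense_seq (Set.range Φ)
  choose g hg using fun n => (v n).2
  refine ⟨fun n => g n, fun n => (g n).2, fun p hp => ⟨comap v (𝓝 ⟨_, ⟨p, hp⟩, rfl⟩),
    comap_neBot_iff.2 fun t ht => hv.mem_nhds ht, fun ξ η => Metric.tendsto_nhds.2 fun ε hε => ?_⟩⟩
  obtain ⟨ω, h1, h2⟩ := Metric.mem_closure_iff.1 (hs ((sp_range M).ge ⟨(ξ, η), rfl⟩)) (ε / 3)
    (by positivity)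
  have h3 : ∀ x : P, dist ⟪η, x.1 ξ⟫_ℂ (Φ x ⟨ω, h1⟩) ≤ ε / 3 := fun x => by
    rw [dist_eq_norm] at h2 ⊢
    exact ((sp_phi M (ξ, η) - ω).le_opNorm ⟨x.1, (hP x x.2).1⟩).trans
      ((mul_le_of_le_one_right (norm_nonneg _) (hP x x.2).2).trans h2.le)
  have h4 : Tendsto (fun n => (v n).1 ⟨ω, h1⟩) (comap v (𝓝 ⟨_, ⟨p, hp⟩, rfl⟩))
      (𝓝 (Φ ⟨p, hp⟩ ⟨ω, h1⟩)) :=
    (((continuous_apply (⟨ω, h1⟩ : c)).comp continuous_subtype_val).tendsto _).comp tendsto_comap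
  filter_upwards [Metric.tendsto_nhds.1 h4 (ε / 3) (by positivity)] with n hn
  rw [← hg n] at hn
  linarith [dist_triangle4 ⟪η, (g n).1 ξ⟫_ℂ (Φ (g n) ⟨ω, h1⟩) (Φ ⟨p, hp⟩ ⟨ω, h1⟩) ⟪η, p ξ⟫_ℂ,
    h3 (g n), (dist_comm _ _).trans_le (h3 ⟨p, hp⟩)]

theorem sp_sub (M : VonNeumannAlgebra H) : vecF M ⊆ predual M := by
  rintro φ ⟨ξ, η, h⟩
  have s : ∀ ζ : H, Summable fun n : ℕ => ‖(Pi.single 0 ζ : ℕ → H) n‖ ^ 2 := fun ζ =>
    (hasSum_single 0 fun n hn => by simp [hn]).summable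
  refine ⟨Pi.single 0 ξ, Pi.single 0 η, s ξ, s η, fun x => ?_⟩
  rw [tsum_eq_single 0 fun n hn => by simp [hn], h x]
  simp

theorem s_sp : S_sp.{u} := fun _ _ _ _ M =>
  ⟨sp_one M, fun h => h.mono (sp_sub M),
    fun _ => sp_range M ▸ TopologicalSpace.isSeparable_range (sp_cont M)⟩

end Vale.Agent.P085.G
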