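import Vale.Agent.P085b.Stm

/-! The finite continuous summand: reduction to the corner. -/

namespace Vale.Agent.P085.G

open scoped InnerProductSpace ComplexOrder

universe u

theorem s_two (hc : S_cor.{u}) (hf : S_fin.{u}) : S_two.{u} := by
  intro H _ _ _ M y hsp hy ⟨⟨J, _, ζ, ζ', v1, v2, v3, v4⟩, hnil⟩
  obtain ⟨K, _, _, _, N, j, a, hja, haj, hjy, hN, hS⟩ := hc H M y hy.mem hy.proj
  have haj' : ∀ η ξ, ⟪a η, ξ⟫_ℂ = ⟪η, j ξ⟫_ℂ := fun η ξ => by
    rw [← inner_conj_symm, ← hja, inner_conj_symm]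
  set φ : Bdd K → Bdd H := fun T => j ∘L T ∘L a with hφ
  set ψ : Bdd H → Bdd K := fun m => a ∘L m ∘L j with hψ
  have hmem : ∀ T, T ∈ N ↔ φ T ∈ M := hN
  have hm : ∀ S T, φ (S * T) = φ S * φ T := fun S T => by
    ext1 ξ
    simp [hφ, haj]
  have hs : ∀ T, φ (star T) = star (φ T) := fun T => by
    rw [ContinuousLinearMap.star_eq_adjoint (φ T), ContinuousLinearMap.eq_adjoint_iff]
    intro ξ η
    simp only [hφ, ContinuousLinearMap.comp_apply]
    rw [hja, ContinuousLinearMap.star_eq_adjoint, ContinuousLinearMap.adjoint_inner_left, haj']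
  have hl : ∀ T, ψ (φ T) = T := fun T => by
    ext1 ξ
    simp [hφ, hψ, haj]
  have hinj : ∀ {S T}, φ S = φ T → S = T := fun {S T} h => by rw [← hl S, h, hl]
  have hr : ∀ m, φ (ψ m) = y * m * y := fun m => by
    ext1 ξ
    simp [hφ, hψ, hjy]
  have h1 : φ 1 = y := by
    ext1 ξ
    simp [hφ, hjy]
  have h0 : φ 0 = 0 := by simp [hφ]
  have hy1 : ∀ T, y * φ T = φ T := fun T => by rw [← h1, ← hm, one_mul]
  have hy2 : ∀ T, φ T * y = φ T := fun T => by rw [← h1, ← hm, mul_one]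
  have hv : ∀ T, vt (fun i => a (ζ i)) (fun i => a (ζ' i)) T = vt ζ ζ' (φ T) := fun T =>
    Finset.sum_congr rfl fun i _ => haj' _ _
  have hD : DTwo N 1 := by
    refine ⟨⟨J, inferInstance, fun i => a (ζ i), fun i => a (ζ' i), ?_, fun x hx => ?_,
      fun x hx w hw => ?_, fun x hx h => ?_⟩, fun r hr' r1 r2 _ r0 => ?_⟩
    · rw [hv, h1, v1]
    · rw [hv, hm, hs]
      exact v2 _ ((hmem x).1 hx)
    · rw [hv, hv, hm, hm]
      exact v3 _ ((hmem x).1 hx) _ ((hmem w).1 hw)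
    · rw [hv, hm, hs] at h
      rw [one_mul]
      exact hinj (by rw [← hy1, v4 _ ((hmem x).1 hx) h, h0])
    · obtain ⟨t, ht, t0, t1, t2, t3⟩ := hnil (φ r) ((hmem r).1 hr') (by rw [← hs, r1])
        (by rw [← hm, r2]) (hy1 r) fun e => r0 (hinj (e.trans h0.symm))
      have e1 : y * t = t := by rw [← t2, ← mul_assoc, hy1]
      have e2 : t * y = t := by rw [← t3, mul_assoc, hy2]
      have e : φ (ψ t) = t := by rw [hr, e1, e2]
      exact ⟨ψ t, (hmem _).2 (e.symm ▸ ht), fun k => t0 (by rw [← e, k, h0]),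
        hinj (by rw [hm, e, t1, h0]), hinj (by rw [hm, e, t2]), hinj (by rw [hm, e, t3])⟩
  obtain ⟨w, hw, hgen⟩ := sg_iff.1 (hf K N (hS hsp) hD)
  have hx : φ w ∈ M.toStarSubalgebra := (hmem w).1 hw
  refine ⟨(1 / 2 : ℂ) • (φ w + star (φ w)),
    SMulMemClass.smul_mem (s := M.toStarSubalgebra) _ (add_mem hx (star_mem hx)),
    (-Complex.I / 2) • (φ w - star (φ w)),
    SMulMemClass.smul_mem (s := M.toStarSubalgebra) _ (sub_mem hx (star_mem hx)),
    by simp [add_comm], ?_, fun t ta tb ty m hm' => ?_⟩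
  · rw [star_smul, star_sub, star_star, ← neg_sub, smul_neg, ← neg_smul]
    simp [neg_div]
  have ta' : Commute t (φ w + star (φ w)) :=
    (Commute.smul_right_iff₀ (by norm_num : (1 / 2 : ℂ) ≠ 0)).1 ta
  have tb' : Commute t (φ w - star (φ w)) :=
    (Commute.smul_right_iff₀ (by simp : (-Complex.I / 2 : ℂ) ≠ 0)).1 tb
  have c1 : Commute t (φ w) := (Commute.smul_right_iff₀ (two_ne_zero (α := ℂ))).1 (by
    rw [show (2 : ℂ) • φ w = φ w + star (φ w) + (φ w - star (φ w)) by module]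
    exact ta'.add_right tb')
  have c2 : Commute t (star (φ w)) := by simpa using ta'.sub_right c1
  have k1 : ∀ S, φ (ψ t * S) = t * φ S := fun S => by
    rw [hm, hr, mul_assoc, hy1, ← ty, mul_assoc, hy1]
  have k2 : ∀ S, φ (S * ψ t) = φ S * t := fun S => by
    rw [hm, hr, mul_assoc y, ← mul_assoc, hy2, ty, ← mul_assoc, hy2]
  have e : φ (ψ m) = m * y := by
    rw [hr, hy.comm m hm', mul_assoc, hy.proj.isIdempotentElem.eq]
  rw [← e, ← k1, ← k2, hgen (ψ t) (hinj (by rw [k1, k2, c1.eq]))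
    (hinj (by rw [k1, k2, hs, c2.eq])) (ψ m) ((hmem _).2 (e.symm ▸ mul_mem hm' hy.mem))]

end Vale.Agent.P085.G
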