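import Vale.Agent.P085b.Pre
import Vale.Agent.P085b.Ce
import Vale.Agent.P085b.Pauli
import Vale.Agent.P085b.Gen
import Vale.Agent.P085b.Tower
import Vale.Agent.P085b.Free
import Vale.Agent.P085b.Sp
import Vale.Agent.P085b.Diag
import Vale.Agent.P085b.Ab
import Vale.Agent.P085b.Inf
import Vale.Agent.P085b.One
import Vale.Agent.P085b.Fin
import Vale.Agent.P085b.Cor
import Vale.Agent.P085b.Two
import Vale.Agent.P085b.Piece
import Vale.Agent.P085b.Glue

/-! Every von Neumann algebra with separable predual is singly generated. -/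

namespace Vale.Agent.P085.G

universe u

variable {H : Type u} [NormedAddCommGroup H] [InnerProductSpace ℂ H] [CompleteSpace H]

open scoped InnerProductSpace

theorem all_sep {M : VonNeumannAlgebra H} (h : HasSeparablePredual M) :
    TopologicalSpace.IsSeparable (vecF M) := by
  classical
  obtain ⟨ψ, -, h⟩ := h
  have key : ∀ p : ℕ × ℕ, ∃ φ' : M.toStarSubalgebra →L[ℂ] ℂ, ∀ φ : M.toStarSubalgebra →L[ℂ] ℂ,
      (∀ x, ‖φ x - ψ p.1 x‖ ≤ 1 / ((p.2 : ℝ) + 1) * ‖x‖) →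
        ∀ x, ‖φ' x - ψ p.1 x‖ ≤ 1 / ((p.2 : ℝ) + 1) * ‖x‖ := fun p => by
    by_cases hh : ∃ φ : M.toStarSubalgebra →L[ℂ] ℂ,
        ∀ x, ‖φ x - ψ p.1 x‖ ≤ 1 / ((p.2 : ℝ) + 1) * ‖x‖
    · exact ⟨hh.choose, fun _ _ => hh.choose_spec⟩
    · exact ⟨0, fun φ hφ => absurd ⟨φ, hφ⟩ hh⟩
  choose c hc using key
  refine ⟨Set.range c, Set.countable_range c, ?_⟩
  rintro φ ⟨ξ, η, hφ⟩
  refine Metric.mem_closure_iff.2 fun ε hε => ?_
  obtain ⟨k, hk⟩ := exists_nat_one_div_lt (half_pos hε)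
  have s : ∀ ζ : H, Summable fun n => ‖(Pi.single 0 ζ : ℕ → H) n‖ ^ 2 := fun ζ =>
    (hasSum_single 0 fun n hn => by simp [hn]).summable
  obtain ⟨n, hn⟩ := h (fun x => ⟪η, x ξ⟫_ℂ) ⟨Pi.single 0 ξ, Pi.single 0 η, s ξ, s η, fun x => by
    rw [tsum_eq_single 0 fun n hn => by simp [hn]]
    simp⟩ _ (Nat.one_div_pos_of_nat (n := k))
  have h1 : ∀ x : M.toStarSubalgebra, ‖φ x - ψ n x‖ ≤ 1 / ((k : ℝ) + 1) * ‖x‖ := fun x => by
    rw [hφ]
    exact hn x x.2
  refine ⟨c (n, k), ⟨_, rfl⟩, ?_⟩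
  rw [dist_eq_norm]
  refine (ContinuousLinearMap.opNorm_le_bound _ (M := 2 * (1 / ((k : ℝ) + 1))) (by positivity)
    fun x => ?_).trans_lt (by linarith)
  have h2 := norm_sub_le (φ x - ψ n x) (c (n, k) x - ψ n x)
  rw [sub_sub_sub_cancel_right] at h2
  rw [sub_apply]
  linarith [h1 x, hc (n, k) φ h1 x]

theorem all_single (M : VonNeumannAlgebra H) (h : TopologicalSpace.IsSeparable (vecF M)) :
    IsSinglyGenerated M := by
  have s : Sp M := (s_sp H M).1 h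
  refine s_glue s_diag H M s fun z hz z0 => ?_
  obtain ⟨y, a, b, c, d⟩ := s_piece H M z hz z0
  exact ⟨y, a, b, c, d.elim (s_inf s_diag H M y s a) fun d => d.elim
    (s_one (s_ab s_diag) s_diag H M y s a) (s_two s_cor (s_fin
      (s_single s_pauli s_ce (s_tower (s_mix s_avg)) s_mixing s_free)) H M y s a)⟩

end Vale.Agent.P085.G
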