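import Vale.Agent.P085.Basic

namespace Vale.Agent.P085

open scoped InnerProductSpace

universe u

variable {H : Type u} [NormedAddCommGroup H] [InnerProductSpace ℂ H] [CompleteSpace H]

/-- The predual `M_*`: the ultraweakly continuous functionals `x ↦ ∑ ⟪η n, x (ξ n)⟫` on `M`, with
square summable sequences `ξ`, `η`, inside the dual space of `M` with its norm. -/
def predual (M : VonNeumannAlgebra H) : Set (M.toStarSubalgebra →L[ℂ] ℂ) :=
  {φ | ∃ ξ η : ℕ → H, Summable (fun n => ‖ξ n‖ ^ 2) ∧ Summable (fun n => ‖η n‖ ^ 2) ∧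
    ∀ x, φ x = ∑' n, ⟪η n, (x : Bdd H) (ξ n)⟫_ℂ}

/-- The predual is norm separable. -/
def SeparablePredual (M : VonNeumannAlgebra H) : Prop :=
  TopologicalSpace.IsSeparable (predual M)

end Vale.Agent.P085
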