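import Vale.Agent.P085.Basic

namespace Vale.Agent.P085

open scoped InnerProductSpace

universe u

variable {H : Type u} [NormedAddCommGroup H] [InnerProductSpace ℂ H] [CompleteSpace H]

/-- The ultraweakly continuous functionals `x ↦ ∑ ⟪η n, x (ξ n)⟫` on `B(H)`, with square summable
sequences `ξ`, `η`. Their restrictions to `M` form the predual `M_*`. -/
def IsUltraweak (φ : Bdd H → ℂ) : Prop :=
  ∃ ξ η : ℕ → H, Summable (fun n => ‖ξ n‖ ^ 2) ∧ Summable (fun n => ‖η n‖ ^ 2) ∧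
    ∀ x : Bdd H, φ x = ∑' n, ⟪η n, x (ξ n)⟫_ℂ

/-- The predual `M_*` is norm separable: some sequence in it is dense for the norm of `M^*`. -/
def HasSeparablePredual (M : VonNeumannAlgebra H) : Prop :=
  ∃ ψ : ℕ → Bdd H → ℂ, (∀ n, IsUltraweak (ψ n)) ∧ ∀ φ : Bdd H → ℂ, IsUltraweak φ →
    ∀ ε : ℝ, 0 < ε → ∃ n, ∀ x ∈ M, ‖φ x - ψ n x‖ ≤ ε * ‖x‖

end Vale.Agent.P085
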