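import Vale.Agent.P085.Main
import Vale.Agent.P085b.Defs

/-! The generator problem for all von Neumann algebras: definitions, statements, basic facts. -/

set_option linter.unusedSectionVars false

namespace Vale.Agent.P085.G

open Filter Topology
open scoped InnerProductSpace ComplexOrder

universe u

/-! ### Finite algebras without abelian projections -/

section Abs

variable {A : Type u} [CStarAlgebra A]

/-- Central elements. -/
def Cen (c : A) : Prop := ∀ y, c * y = y * c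

/-- Every nonzero corner contains a nonzero element of square zero. -/
def Nil (Q : StarSubalgebra ℂ A) : Prop := ∀ r ∈ Q, star r = r → r * r = r → r ≠ 0 →
  ∃ t ∈ Q, t ≠ 0 ∧ t * t = 0 ∧ r * t = t ∧ t * r = t

theorem Cen.star {c : A} (h : Cen c) : Cen (star c) := fun y => by
  rw [← star_star y, ← star_mul, ← star_mul, h]

theorem Cen.one : Cen (1 : A) := fun y => by rw [one_mul, mul_one]

theorem Cen.mul {c d : A} (h : Cen c) (h' : Cen d) : Cen (c * d) := fun y => by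
  rw [mul_assoc, h', ← mul_assoc, h, mul_assoc]

theorem Cen.sub {c d : A} (h : Cen c) (h' : Cen d) : Cen (c - d) := fun y => by
  rw [sub_mul, mul_sub, h, h']

theorem Nil.top {Q : StarSubalgebra ℂ A} [IsClosed (Q : Set A)] (h : Nil Q) :
    Nil (⊤ : StarSubalgebra ℂ Q) := fun r _ h1 h2 h0 => by
  obtain ⟨t, ht, k0, k1, k2, k3⟩ := h r r.2 (congrArg Subtype.val h1) (congrArg Subtype.val h2)
    fun e => h0 (Subtype.ext e)
  exact ⟨⟨t, ht⟩, trivial, fun e => k0 (congrArg Subtype.val e), Subtype.ext k1, Subtype.ext k2,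
    Subtype.ext k3⟩

variable [Tr A]

/-- The centre valued trace. -/
structure CE (E : A →ₗ[ℂ] A) : Prop where
  cen : ∀ y, Cen (E y)
  tr : ∀ c y, Cen c → τ (c * E y) = τ (c * y)

theorem Cen.eq_zero {w : A} (h : Cen w) (h0 : ∀ c, Cen c → τ (c * w) = 0) : w = 0 :=
  τ_faithful w (h0 _ h.star)

namespace CE

variable {E : A →ₗ[ℂ] A} (h : CE E)
include h

theorem eq_of {w y : A} (hw : Cen w) (e : ∀ c, Cen c → τ (c * w) = τ (c * y)) : E y = w :=
  sub_eq_zero.1 (((h.cen y).sub hw).eq_zero fun c hc => by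
    rw [mul_sub, map_sub, h.tr c y hc, e c hc, sub_self])

theorem congr {x y : A} (e : ∀ c, Cen c → τ (c * x) = τ (c * y)) : E x = E y :=
  h.eq_of (h.cen y) fun c hc => by rw [h.tr c y hc, e c hc]

theorem of_cen {c : A} (hc : Cen c) : E c = c := h.eq_of hc fun _ _ => rfl

theorem idem (y : A) : E (E y) = E y := h.of_cen (h.cen y)

theorem comm (x y : A) : E (x * y) = E (y * x) := h.congr fun c hc => by
  rw [← mul_assoc, τ_comm, ← mul_assoc, ← hc y, mul_assoc]

theorem mul_cen (y : A) {c : A} (hc : Cen c) : E (y * c) = E y * c :=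
  h.eq_of ((h.cen y).mul hc) fun d hd => by
    rw [← hc, ← hc y, ← mul_assoc, ← mul_assoc, h.tr _ y (hd.mul hc)]

theorem τ_E (y : A) : τ (E y) = τ y := by simpa using h.tr 1 y Cen.one

theorem n2_le (y : A) : n2 (E y) ≤ n2 y := by
  have h1 := norm_τ_mul_le (star (E y)) y
  rw [← h.tr _ y (h.cen y).star, τ_star_mul_self, n2_star, Complex.norm_real,
    Real.norm_of_nonneg (sq_nonneg _)] at h1
  rcases (n2_nonneg (E y)).eq_or_lt with h0 | h0
  · rw [← h0]; exact n2_nonneg y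
  · exact le_of_mul_le_mul_left (by linarith) h0

theorem norm_τ_le (y : A) : ‖τ y‖ ≤ n2 (E y) := h.τ_E y ▸ norm_τ_le_n2 _

end CE

/-- Weakly closed subalgebras with the same centre and without abelian projections. -/
structure II (Q : StarSubalgebra ℂ A) : Prop where
  isW : IsW Q
  fac : ∀ c ∈ Q, (∀ y ∈ Q, c * y = y * c) → Cen c
  nil : Nil Q

theorem II.top (h : Nil (⊤ : StarSubalgebra ℂ A)) : II (⊤ : StarSubalgebra ℂ A) :=
  ⟨⟨fun _ _ _ _ _ => trivial⟩, fun _ _ k y => k y trivial, h⟩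

theorem II.inf_cent {Q : StarSubalgebra ℂ A} (hQ : II Q) {x z : A} (hx : x ∈ Q) (hz : z ∈ Q)
    (h : IsPauli x z) : II (Q ⊓ cent x z) := by
  have hm : ∀ y ∈ Q, tw x z y ∈ Q ⊓ cent x z := fun y hy =>
    ⟨tw_mem hx hz hy, h.mem_cent.2 ⟨h.comm_x y, h.comm_z y⟩⟩
  refine ⟨⟨fun u y hu hb hy => ⟨hQ.isW.mem u y (fun n => (hu n).1) hb hy, h.mem_cent.2
    ⟨(hy.const_mul x).eq_of_eq (hy.mul_const x) fun n => (h.mem_cent.1 (hu n).2).1,
     (hy.const_mul z).eq_of_eq (hy.mul_const z) fun n => (h.mem_cent.1 (hu n).2).2⟩⟩⟩,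
    fun c hc hcc => hQ.fac c hc.1 fun y hy => ?_, fun r hr r1 r2 r0 => ?_⟩
  · have h1 : Commute c x := (h.mem_cent.1 hc.2).1.symm
    have h2 : Commute c z := (h.mem_cent.1 hc.2).2.symm
    have h3 : ∀ y ∈ Q, Commute c (tw x z y) := fun y hy => hcc _ (hm y hy)
    rw [h.decomp y]
    exact (((h3 _ hy).add_right (h1.mul_right (h3 _ (mul_mem hx hy)))).add_right
      (h2.mul_right (h3 _ (mul_mem hz hy)))).add_right
      ((h1.mul_right h2).mul_right (h3 _ (mul_mem (mul_mem hz hx) hy)))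
  · obtain ⟨rx, rz⟩ := h.mem_cent.1 hr.2
    have r3 : ∀ w, r * (r * w) = r * w := fun w => by rw [← mul_assoc, r2]
    have rz' : ∀ w, z * (r * w) = r * (z * w) := fun w => by rw [← mul_assoc, rz, mul_assoc]
    have rx' : ∀ w, x * (r * w) = r * (x * w) := fun w => by rw [← mul_assoc, rx, mul_assoc]
    obtain ⟨t, ht, t0, t1, t2, t3⟩ := hQ.nil ((2⁻¹ : ℂ) • (r + r * z))
      (SMulMemClass.smul_mem _ (add_mem hr.1 (mul_mem hr.1 hz))) (by simp [r1, h.sz, rz])
      (by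
        simp only [mul_smul_comm, smul_mul_assoc, mul_add, add_mul, mul_assoc, r2, r3, rz, rz', h.zz,
          mul_one]
        module)
      (fun e => r0 (by
        have e1 : r + r * z = 0 := (smul_eq_zero.1 e).resolve_left (by norm_num)
        have e2 : x * (r + r * z) * x = r - r * z := by
          simp only [mul_add, add_mul, mul_assoc, rx', h.zx, mul_neg, h.xx', h.xx, mul_one,
            sub_eq_add_neg]
        rw [e1, mul_zero, zero_mul] at e2
        have e3 : (2 : ℂ) • r = r + r * z + (r - r * z) := by module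
        rw [e1, ← e2, add_zero] at e3
        exact (smul_eq_zero.1 e3).resolve_left two_ne_zero))
    have a1 : z * t = t := by
      rw [← t2]
      simp only [mul_smul_comm, smul_mul_assoc, mul_add, add_mul, mul_assoc, rz', h.zz', add_comm]
    have a2 : t * z = t := by
      rw [← t3]
      simp only [mul_smul_comm, smul_mul_assoc, mul_add, add_mul, mul_assoc, h.zz, mul_one, add_comm]
    have a3 : r * t = t := by
      rw [← t2]
      simp only [mul_smul_comm, smul_mul_assoc, mul_add, add_mul, mul_assoc, r3]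
    have a4 : t * r = t := by
      rw [← t3]
      simp only [mul_smul_comm, smul_mul_assoc, mul_add, add_mul, mul_assoc, r2, rz, r3]
    have a5 : t * (x * t) = 0 := by
      have e : t * (x * t) = -(t * (x * t)) :=
        calc t * (x * t) = t * z * (x * t) := by rw [a2]
          _ = _ := by rw [mul_assoc, h.zx', a1, mul_neg]
      exact (smul_eq_zero.1 ((two_smul ℂ _).trans (add_eq_zero_iff_eq_neg.2 e))).resolve_left
        two_ne_zero
    have a6 : ∀ w, t * (x * (t * w)) = 0 := fun w => by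
      rw [← mul_assoc x, ← mul_assoc, a5, zero_mul]
    have a7 : z * (x * t * x) = -(x * t * x) := by rw [mul_assoc, h.zx', ← mul_assoc z, a1]
    have a8 : x * t * x * z = -(x * t * x) := by
      rw [mul_assoc, ← neg_neg (x * z), ← h.zx, mul_neg, ← mul_assoc, mul_assoc x, a2]
    refine ⟨t + x * t * x, ⟨add_mem ht (mul_mem (mul_mem hx ht) hx), h.mem_cent.2 ⟨?_, ?_⟩⟩,
      fun e => t0 ?_, ?_, ?_, ?_⟩
    · simp only [mul_add, add_mul, mul_assoc, h.xx', h.xx, mul_one, add_comm]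
    · rw [mul_add, add_mul, a1, a2, a7, a8]
    · have e1 := congrArg (z * ·) e
      simp only [mul_add, a1, a7, mul_zero] at e1
      have e3 : (2 : ℂ) • t = t + x * t * x + (t + -(x * t * x)) := by module
      rw [e, e1, add_zero] at e3
      exact (smul_eq_zero.1 e3).resolve_left two_ne_zero
    · have t4 : ∀ w, t * (t * w) = 0 := fun w => by rw [← mul_assoc, t1, zero_mul]
      simp only [mul_add, add_mul, mul_assoc, h.xx', t1, t4, a5, a6, mul_zero, add_zero]
    · rw [mul_add, a3, mul_assoc, ← rx', ← mul_assoc r, a3]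
    · rw [add_mul, a4, mul_assoc, rx, ← mul_assoc, mul_assoc x, a4]

/-- Commuting Pauli pairs whose relative commutant is the centre. -/
structure Tower (E : A →ₗ[ℂ] A) (x z : ℕ → A) : Prop where
  pauli : ∀ k, IsPauli (x k) (z k)
  comm : ∀ j k, j < k → x k ∈ cent (x j) (z j) ∧ z k ∈ cent (x j) (z j)
  lim : ∀ y, T2 atTop (fun k => tT x z k y) (E y)

/-- A filter of means on symmetries in `N` that is mixing relative to the centre. -/
structure Mixing (E : A →ₗ[ℂ] A) (N : StarSubalgebra ℂ A) (l : Filter (Mean A)) : Prop where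
  neBot : l.NeBot
  sym : ∀ᶠ μ in l, ∀ a ∈ μ.supp, star a = a ∧ a * a = 1 ∧ a ∈ N
  fst : ∀ y, ∀ η > 0, ∀ᶠ μ in l, ∀ a ∈ μ.supp, n2 (E (a * y)) ≤ η
  snd : ∀ y y', ∀ η > 0, ∀ᶠ μ in l,
    μ.E (fun a => (τ (a * y * a * y')).re) ≤ n2 (E y) * n2 y' + η

/-- Four unitaries become asymptotically free after multiplication by unitaries of `N`. -/
def Free (N : StarSubalgebra ℂ A) : Prop :=
  ∀ y : Fin 4 → A, (∀ j, y j ∈ unitary A) → ∀ (n : ℕ) (ε : ℝ), 0 < ε →
    ∃ s : Fin 4 → A, (∀ j, s j ∈ unitary A ∧ s j ∈ N) ∧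
      ∀ L, L.length ≤ n → L ≠ [] → FreeGroup.IsReduced L → ‖τ (val y s L)‖ ≤ ε

end Abs

def S_ce : Prop := ∀ (A : Type u) [CStarAlgebra A] [Tr A] [WTr A], ∃ E : A →ₗ[ℂ] A, CE E

def S_avg : Prop := ∀ (A : Type u) [CStarAlgebra A] [Tr A] [WTr A] (Q : StarSubalgebra ℂ A),
  II Q → ∀ y ∈ Q, ∀ c ∈ Q, (∀ d, Cen d → τ (d * y) = 0) → ∀ β : ℝ,
    (∀ v ∈ Q, v ∈ unitary A → β ≤ (τ (c * (v * y * star v))).re) → β ≤ 0

def S_pauli : Prop := ∀ (A : Type u) [CStarAlgebra A] [Tr A] [WTr A] (Q : StarSubalgebra ℂ A),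
  II Q → ∃ x ∈ Q, ∃ z ∈ Q, IsPauli x z

def S_mix : Prop := ∀ (A : Type u) [CStarAlgebra A] [Tr A] [WTr A] (Q : StarSubalgebra ℂ A),
  II Q → ∀ y ∈ Q, (∀ d, Cen d → τ (d * y) = 0) →
    ∃ x ∈ Q, ∃ z ∈ Q, IsPauli x z ∧ n2 (tw x z y) ^ 2 ≤ 9 / 10 * n2 y ^ 2

def S_tower : Prop := ∀ (A : Type u) [CStarAlgebra A] [Tr A] [WTr A]
  [TopologicalSpace.SeparableSpace (LL A)] (E : A →ₗ[ℂ] A), Nil (⊤ : StarSubalgebra ℂ A) → CE E →
    ∃ x z : ℕ → A, Tower E x z

def S_mixing : Prop := ∀ (A : Type u) [CStarAlgebra A] [Tr A] (E : A →ₗ[ℂ] A) (x z : ℕ → A)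
  (N : StarSubalgebra ℂ A), CE E → Tower E x z → (∀ k, x k ∈ N) → (∀ k, z k ∈ N) →
    ∃ l, Mixing E N l

def S_free : Prop := ∀ (A : Type u) [CStarAlgebra A] [Tr A] (E : A →ₗ[ℂ] A)
  (N : StarSubalgebra ℂ A) (l : Filter (Mean A)), CE E → Mixing E N l → Free N

def S_gen : Prop := ∀ (A : Type u) [CStarAlgebra A] [Tr A] [WTr A]
  [TopologicalSpace.SeparableSpace (LL A)] (N : StarSubalgebra ℂ A), Free N →
    ∃ a : A, ∀ S : StarSubalgebra ℂ A, IsW S → N ≤ S → a ∈ S → ∀ y, y ∈ S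

def S_single : Prop := ∀ (A : Type u) [CStarAlgebra A] [Tr A] [WTr A]
  [TopologicalSpace.SeparableSpace (LL A)], Nil (⊤ : StarSubalgebra ℂ A) →
    ∃ w : A, ∀ S : StarSubalgebra ℂ A, IsW S → w ∈ S → ∀ y, y ∈ S

/-! ### Concrete von Neumann algebras -/

section Con

variable {H : Type u} [NormedAddCommGroup H] [InnerProductSpace ℂ H] [CompleteSpace H]

/-- The vector functionals. -/
def vecF (M : VonNeumannAlgebra H) : Set (M.toStarSubalgebra →L[ℂ] ℂ) :=
  {φ | ∃ ξ η : H, ∀ x, φ x = ⟪η, (x : Bdd H) ξ⟫_ℂ}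

/-- Every subset of the unit ball is weakly separable. -/
def Sp (M : VonNeumannAlgebra H) : Prop :=
  ∀ P : Set (Bdd H), P.Nonempty → (∀ p ∈ P, p ∈ M ∧ ‖p‖ ≤ 1) →
    ∃ g : ℕ → Bdd H, (∀ n, g n ∈ P) ∧ ∀ p ∈ P, ∃ l : Filter ℕ, l.NeBot ∧ WL l g p

/-- Central projections. -/
structure CP (M : VonNeumannAlgebra H) (y : Bdd H) : Prop where
  mem : y ∈ M
  proj : IsStarProjection y
  comm : ∀ m ∈ M, y * m = m * y

/-- The summand `M y` is generated by two self-adjoint elements. -/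
def Good (M : VonNeumannAlgebra H) (y : Bdd H) : Prop :=
  ∃ a ∈ M, ∃ b ∈ M, star a = a ∧ star b = b ∧ ∀ t : Bdd H, t * a = a * t → t * b = b * t →
    t * y = y * t → ∀ m ∈ M, t * (m * y) = m * y * t

/-- A properly infinite summand. -/
def DInf (M : VonNeumannAlgebra H) (y : Bdd H) : Prop :=
  ∃ v : ℕ → Bdd H, (∀ i, v i ∈ M) ∧ ∀ i j, star (v i) * v j = if i = j then y else 0

/-- Abelian projections. -/
structure Ab (M : VonNeumannAlgebra H) (p : Bdd H) : Prop where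
  mem : p ∈ M
  proj : IsStarProjection p
  comm : ∀ a ∈ M, ∀ b ∈ M, p * a * p * (p * b * p) = p * b * p * (p * a * p)

/-- A finite discrete summand. -/
def DOne (M : VonNeumannAlgebra H) (y : Bdd H) : Prop :=
  ∃ (p : Bdd H) (k : ℕ) (w : ℕ → Bdd H), Ab M p ∧ y * p = p ∧
    (∀ i, w i ∈ M ∧ w i * p = w i ∧ p * w i = 0 ∧ w i * (star (w i) * w i) = w i) ∧
    (∀ i j, i ≠ j → star (w i) * w j = 0) ∧ ∑ i ∈ Finset.range k, w i * star (w i) = y - p

/-- A finite sum of vector functionals. -/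
noncomputable def vt {J : Type} [Fintype J] (ζ ζ' : J → H) (x : Bdd H) : ℂ :=
  ∑ j, ⟪ζ' j, x (ζ j)⟫_ℂ

/-- A finite continuous summand with a faithful normal trace. -/
def DTwo (M : VonNeumannAlgebra H) (y : Bdd H) : Prop :=
  (∃ (J : Type) (_ : Fintype J) (ζ ζ' : J → H), vt ζ ζ' y = 1 ∧
    (∀ x ∈ M, 0 ≤ vt ζ ζ' (star x * x)) ∧ (∀ x ∈ M, ∀ w ∈ M, vt ζ ζ' (x * w) = vt ζ ζ' (w * x)) ∧
    ∀ x ∈ M, vt ζ ζ' (star x * x) = 0 → y * x = 0) ∧
  ∀ r ∈ M, star r = r → r * r = r → y * r = r → r ≠ 0 →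
    ∃ t ∈ M, t ≠ 0 ∧ t * t = 0 ∧ r * t = t ∧ t * r = t

theorem isClosed_vn (M : VonNeumannAlgebra H) : IsClosed (M.toStarSubalgebra : Set (Bdd H)) := by
  rw [M.coe_toStarSubalgebra, ← M.centralizer_centralizer]
  exact Set.isClosed_centralizer _

theorem mem_of_comm {M : VonNeumannAlgebra H} {x : Bdd H}
    (h : ∀ t : Bdd H, (∀ m ∈ M, m * t = t * m) → t * x = x * t) : x ∈ M := by
  rw [← M.commutant_commutant, VonNeumannAlgebra.mem_commutant_iff]
  exact fun t ht => h t (VonNeumannAlgebra.mem_commutant_iff.1 ht)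

/-- Single generation in terms of commutants. -/
theorem sg_iff {M : VonNeumannAlgebra H} : IsSinglyGenerated M ↔ ∃ x ∈ M, ∀ t : Bdd H,
    t * x = x * t → t * star x = star x * t → ∀ m ∈ M, t * m = m * t := by
  refine exists_congr fun x => and_congr_right fun _ => ⟨fun h t h1 h2 m hm => ?_,
    fun h N hN m hm => mem_of_comm fun t ht => h t (ht x hN).symm (ht _ (star_mem hN)).symm m hm⟩
  let N : VonNeumannAlgebra H := ⟨StarSubalgebra.centralizer ℂ {t}, by simp⟩
  have k : ∀ w, w ∈ N ↔ t * w = w * t ∧ star t * w = w * star t := fun w => by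
    change w ∈ StarSubalgebra.centralizer ℂ {t} ↔ _
    simp [StarSubalgebra.mem_centralizer_iff]
  exact ((k m).1 (h N ((k x).2 ⟨h1, by simpa using (congrArg star h2).symm⟩) hm)).1

theorem WL.comm {l : Filter ℕ} [l.NeBot] {g : ℕ → Bdd H} {p t : Bdd H} (h : WL l g p)
    (ht : ∀ n, t * g n = g n * t) : t * p = p * t := by
  ext1 ξ
  refine ext_inner_left ℂ fun η => tendsto_nhds_unique (h.const_mul t ξ η) ?_
  simpa only [ht, mul_apply_eq_comp] using h (t ξ) η

theorem WL.ker {l : Filter ℕ} [l.NeBot] {g : ℕ → Bdd H} {p : Bdd H} (h : WL l g p) {ξ : H}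
    (h0 : ∀ n, g n ξ = 0) : p ξ = 0 :=
  ext_inner_left ℂ fun η => tendsto_nhds_unique (h ξ η) (by simp [h0])

/-- The projection onto a subspace that is invariant under the commutant. -/
theorem proj_mem {M : VonNeumannAlgebra H} (K : Submodule ℂ H) [K.HasOrthogonalProjection]
    (h : ∀ t : Bdd H, (∀ m ∈ M, m * t = t * m) → ∀ ξ ∈ K, t ξ ∈ K) : K.starProjection ∈ M := by
  rw [VonNeumannAlgebra.IsStarProjection.mem_iff isStarProjection_starProjection,
    Submodule.range_starProjection]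
  exact fun t ht ξ hξ => h t (VonNeumannAlgebra.mem_commutant_iff.1 ht) ξ hξ

end Con

def S_sp : Prop := ∀ (H : Type u) [NormedAddCommGroup H] [InnerProductSpace ℂ H] [CompleteSpace H]
  (M : VonNeumannAlgebra H), (TopologicalSpace.IsSeparable (vecF M) → Sp M) ∧
    (SeparablePredual M → TopologicalSpace.IsSeparable (vecF M)) ∧
    (TopologicalSpace.SeparableSpace H → TopologicalSpace.IsSeparable (vecF M))

/-- One self-adjoint element encodes orthogonal projections and one element in each corner. -/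
def S_diag : Prop := ∀ (H : Type u) [NormedAddCommGroup H] [InnerProductSpace ℂ H] [CompleteSpace H]
  (M : VonNeumannAlgebra H) (e a : ℕ → Bdd H),
  (∀ n, e n ∈ M ∧ a n ∈ M ∧ IsStarProjection (e n) ∧ star (a n) = a n ∧ e n * a n = a n ∧
    ‖a n‖ ≤ 1) → (∀ i j, i ≠ j → e i * e j = 0) →
  ∃ h ∈ M, star h = h ∧ ∀ t : Bdd H, t * h = h * t →
    ∀ n, t * e n = e n * t ∧ t * a n = a n * t

/-- Abelian corners are generated by one self-adjoint element. -/
def S_ab : Prop := ∀ (H : Type u) [NormedAddCommGroup H] [InnerProductSpace ℂ H] [CompleteSpace H]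
  (M : VonNeumannAlgebra H) (p : Bdd H), Sp M → Ab M p →
  ∃ h ∈ M, star h = h ∧ p * h = h ∧ ‖h‖ ≤ 1 ∧ ∀ t : Bdd H, t * h = h * t → t * p = p * t →
    ∀ m ∈ M, t * (p * m * p) = p * m * p * t

def S_inf : Prop := ∀ (H : Type u) [NormedAddCommGroup H] [InnerProductSpace ℂ H] [CompleteSpace H]
  (M : VonNeumannAlgebra H) (y : Bdd H), Sp M → CP M y → DInf M y → Good M y

def S_one : Prop := ∀ (H : Type u) [NormedAddCommGroup H] [InnerProductSpace ℂ H] [CompleteSpace H]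
  (M : VonNeumannAlgebra H) (y : Bdd H), Sp M → CP M y → DOne M y → Good M y

def S_fin : Prop := ∀ (H : Type u) [NormedAddCommGroup H] [InnerProductSpace ℂ H] [CompleteSpace H]
  (M : VonNeumannAlgebra H), Sp M → DTwo M 1 → IsSinglyGenerated M

/-- The corner as a von Neumann algebra on the range. -/
def S_cor : Prop := ∀ (H : Type u) [NormedAddCommGroup H] [InnerProductSpace ℂ H] [CompleteSpace H]
  (M : VonNeumannAlgebra H) (y : Bdd H), y ∈ M → IsStarProjection y →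
  ∃ (K : Type u) (_ : NormedAddCommGroup K) (_ : InnerProductSpace ℂ K) (_ : CompleteSpace K)
    (N : VonNeumannAlgebra K) (j : K →L[ℂ] H) (a : H →L[ℂ] K),
    (∀ ξ η, ⟪j ξ, η⟫_ℂ = ⟪ξ, a η⟫_ℂ) ∧ (∀ ξ, a (j ξ) = ξ) ∧ (∀ η, j (a η) = y η) ∧
      (∀ T : Bdd K, T ∈ N ↔ j ∘L T ∘L a ∈ M) ∧ (Sp M → Sp N)

def S_two : Prop := ∀ (H : Type u) [NormedAddCommGroup H] [InnerProductSpace ℂ H] [CompleteSpace H]
  (M : VonNeumannAlgebra H) (y : Bdd H), Sp M → CP M y → DTwo M y → Good M y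

/-- The type decomposition. -/
def S_piece : Prop := ∀ (H : Type u) [NormedAddCommGroup H] [InnerProductSpace ℂ H]
  [CompleteSpace H] (M : VonNeumannAlgebra H) (z : Bdd H), CP M z → z ≠ 0 →
  ∃ y, CP M y ∧ y ≠ 0 ∧ z * y = y ∧ (DInf M y ∨ DOne M y ∨ DTwo M y)

def S_glue : Prop := ∀ (H : Type u) [NormedAddCommGroup H] [InnerProductSpace ℂ H]
  [CompleteSpace H] (M : VonNeumannAlgebra H), Sp M →
  (∀ z, CP M z → z ≠ 0 → ∃ y, CP M y ∧ y ≠ 0 ∧ z * y = y ∧ Good M y) → IsSinglyGenerated M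

theorem out_of (h1 : S_sp.{u}) (h2 : S_inf.{u}) (h3 : S_one.{u}) (h4 : S_two.{u})
    (h5 : S_piece.{u}) (h6 : S_glue.{u}) {H : Type u} [NormedAddCommGroup H]
    [InnerProductSpace ℂ H] [CompleteSpace H] (M : VonNeumannAlgebra H)
    (h : SeparablePredual M ∨ TopologicalSpace.SeparableSpace H) : IsSinglyGenerated M := by
  have s : Sp M := (h1 H M).1 (h.elim (h1 H M).2.1 (h1 H M).2.2)
  refine h6 H M s fun z hz z0 => ?_
  obtain ⟨y, a, b, c, d⟩ := h5 H M z hz z0
  exact ⟨y, a, b, c, d.elim (h2 H M y s a) fun d => d.elim (h3 H M y s a) (h4 H M y s a)⟩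

end Vale.Agent.P085.G
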